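import Vale.Agent.P146.R3.H924.EqvCC

/-!
# P146: the part without edges at `j`, by exchangeability
-/

open Finset

namespace Vale.Agent.P146.R3.H924

open Vale.Agent.P146.H453

variable {n : ℕ}

lemma nz_alg {m N l c s Y S : ℝ} (hm : 0 < m) (hN : 0 < N) (hmN : m ≤ 2 * N)
    (hY : m * Y = N * c + s) (hs : s ^ 2 ≤ l * S) (hl : 0 ≤ l) (hS : 0 ≤ S) :
    m⁻¹ * (N * c ^ 2) ≤ 4 * Y ^ 2 + 4 * l / m * (m⁻¹ * S) := by
  have h1 : N * c = m * Y - s := by linarith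
  have h2 : (N * c) ^ 2 ≤ 2 * (m ^ 2 * Y ^ 2 + l * S) := by
    rw [h1]
    nlinarith [sq_nonneg (m * Y + s)]
  have h3 : N * c ^ 2 = (N * c) ^ 2 / N := by
    field_simp
  have h4 : 0 ≤ m ^ 2 * Y ^ 2 + l * S := by positivity
  have h5 : N * c ^ 2 ≤ 4 * (m ^ 2 * Y ^ 2 + l * S) / m := by
    rw [h3, div_le_div_iff₀ hN hm]
    have h6 := mul_le_mul_of_nonneg_right h2 hm.le
    have h7 := mul_le_mul_of_nonneg_left hmN h4
    nlinarith
  have h8 : m⁻¹ * (4 * (m ^ 2 * Y ^ 2 + l * S) / m) = 4 * Y ^ 2 + 4 * l / m * (m⁻¹ * S) := by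
    field_simp
  rw [← h8]
  exact mul_le_mul_of_nonneg_left h5 (by positivity)

/-- the inequality for one multi-index -/
lemma nz_one {L : ℕ} (hn : 0 < n) (h4 : 4 * L ≤ n) {D : Fin n → Fam n} (hD : Eqv D) {α : MI n}
    (hα : tot α ≤ L) :
    (n : ℝ)⁻¹ * ∑ j ∈ univ.filter (fun j => deg α j = 0), D j j α ^ 2 ≤
      4 * ((n : ℝ)⁻¹ * ∑ j, D j j α) ^ 2 + 8 * L / n * ((n : ℝ)⁻¹ * ∑ j, D j j α ^ 2) := by
  have hm : (0 : ℝ) < n := by exact_mod_cast hn
  have hR : 0 ≤ 4 * ((n : ℝ)⁻¹ * ∑ j, D j j α) ^ 2 +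
      8 * L / n * ((n : ℝ)⁻¹ * ∑ j, D j j α ^ 2) := by
    have : 0 ≤ ∑ j, D j j α ^ 2 := Finset.sum_nonneg fun _ _ => sq_nonneg _
    positivity
  rcases (univ.filter fun j => deg α j = 0).eq_empty_or_nonempty with h | ⟨j₀, hj₀⟩
  · rw [h, Finset.sum_empty, mul_zero]
    exact hR
  · rw [mem_filter] at hj₀
    obtain ⟨N, hN⟩ : ∃ N : ℕ, N = (univ.filter fun j => deg α j = 0).card := ⟨_, rfl⟩
    have hc : ∀ j ∈ univ.filter (fun j => deg α j = 0), D j j α = D j₀ j₀ α := by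
      intro j hj
      rw [mem_filter] at hj
      exact eqv_diag hD hj.2 hj₀.2
    have hNpos : 0 < N := by
      rw [hN, Finset.card_pos]
      exact ⟨j₀, by rw [mem_filter]; exact hj₀⟩
    have hcard : N + (vs α).card = n := by
      have := Finset.card_filter_add_card_filter_not (s := (univ : Finset (Fin n)))
        (fun j => deg α j = 0)
      rw [Finset.card_univ, Fintype.card_fin] at this
      rw [hN]
      exact this
    have hvs : (vs α).card ≤ 2 * L := (card_vs α).trans (by omega)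
    have hnN : n ≤ 2 * N := by omega
    have hsum : ∑ j, D j j α = N * D j₀ j₀ α + ∑ j ∈ vs α, D j j α := by
      rw [← Finset.sum_filter_add_sum_filter_not univ (fun j => deg α j = 0)]
      congr 1
      rw [Finset.sum_congr rfl hc, Finset.sum_const, nsmul_eq_mul, hN]
    have h1 : ∑ j ∈ univ.filter (fun j => deg α j = 0), D j j α ^ 2 = N * D j₀ j₀ α ^ 2 := by
      rw [Finset.sum_congr rfl fun j hj => by rw [hc j hj], Finset.sum_const, nsmul_eq_mul, hN]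
    have hs : (∑ j ∈ vs α, D j j α) ^ 2 ≤ (2 * L : ℝ) * ∑ j, D j j α ^ 2 := by
      have e1 := sq_sum_le_card_mul_sum_sq (s := vs α) (f := fun j => D j j α)
      refine e1.trans ?_
      have e2 : ((vs α).card : ℝ) ≤ 2 * L := by exact_mod_cast hvs
      have e3 : ∑ j ∈ vs α, D j j α ^ 2 ≤ ∑ j, D j j α ^ 2 :=
        Finset.sum_le_sum_of_subset_of_nonneg (subset_univ _) fun _ _ _ => sq_nonneg _
      exact mul_le_mul e2 e3 (Finset.sum_nonneg fun _ _ => sq_nonneg _) (by positivity)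
    rw [h1]
    have h2 := nz_alg (m := n) (N := N) (l := 2 * L) (c := D j₀ j₀ α)
      (s := ∑ j ∈ vs α, D j j α) (Y := (n : ℝ)⁻¹ * ∑ j, D j j α) (S := ∑ j, D j j α ^ 2) hm
      (by exact_mod_cast hNpos) (by exact_mod_cast hnN)
      (by rw [← hsum, ← mul_assoc, mul_inv_cancel₀ hm.ne', one_mul]) hs (by positivity)
      (Finset.sum_nonneg fun _ _ => sq_nonneg _)
    refine h2.trans (le_of_eq ?_)
    ring

/-- **The part without edges at `j`.** -/
theorem nz_sum {t : ℝ} (ht : 0 ≤ t) {L : ℕ} (hn : 0 < n) (h4 : 4 * L ≤ n) {D : Fin n → Fam n}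
    (hD : Eqv D) :
    (n : ℝ)⁻¹ * ∑ j, ∑ α ∈ (ML n L).filter (fun α => deg α j = 0 ∧ α ≠ 0),
        wt t α * D j j α ^ 2 ≤
      4 * ∑ α ∈ (ML n L).filter (fun α => α ≠ 0), wt t α * ((n : ℝ)⁻¹ * ∑ j, D j j α) ^ 2 +
        8 * L / n * ((n : ℝ)⁻¹ * ∑ j, nv t L (D j) j) := by
  have hm : (0 : ℝ) < n := by exact_mod_cast hn
  have e1 : (n : ℝ)⁻¹ * ∑ j, ∑ α ∈ (ML n L).filter (fun α => deg α j = 0 ∧ α ≠ 0),
      wt t α * D j j α ^ 2 = ∑ α ∈ (ML n L).filter (fun α => α ≠ 0),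
        wt t α * ((n : ℝ)⁻¹ * ∑ j ∈ univ.filter (fun j => deg α j = 0), D j j α ^ 2) := by
    have e2 : ∀ j : Fin n, ∑ α ∈ (ML n L).filter (fun α => deg α j = 0 ∧ α ≠ 0),
        wt t α * D j j α ^ 2 = ∑ α ∈ (ML n L).filter (fun α => α ≠ 0),
          if deg α j = 0 then wt t α * D j j α ^ 2 else 0 := by
      intro j
      rw [← Finset.sum_filter, Finset.filter_filter]
      refine Finset.sum_congr ?_ fun _ _ => rfl
      ext α
      simp only [mem_filter]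
      tauto
    rw [Finset.sum_congr rfl fun j _ => e2 j, Finset.sum_comm, Finset.mul_sum]
    refine Finset.sum_congr rfl fun α _ => ?_
    rw [← Finset.sum_filter, ← Finset.mul_sum]
    ring
  have e3 : (n : ℝ)⁻¹ * ∑ j, nv t L (D j) j =
      ∑ α ∈ ML n L, wt t α * ((n : ℝ)⁻¹ * ∑ j, D j j α ^ 2) := by
    unfold nv
    rw [Finset.sum_comm, Finset.mul_sum]
    refine Finset.sum_congr rfl fun α _ => ?_
    rw [← Finset.mul_sum]
    ring
  rw [e1, e3]
  have h1 : ∑ α ∈ (ML n L).filter (fun α => α ≠ 0),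
        wt t α * ((n : ℝ)⁻¹ * ∑ j ∈ univ.filter (fun j => deg α j = 0), D j j α ^ 2) ≤
      ∑ α ∈ (ML n L).filter (fun α => α ≠ 0), (4 * (wt t α * ((n : ℝ)⁻¹ * ∑ j, D j j α) ^ 2) +
        8 * L / n * (wt t α * ((n : ℝ)⁻¹ * ∑ j, D j j α ^ 2))) := by
    refine Finset.sum_le_sum fun α hα => ?_
    rw [mem_filter, mem_ML] at hα
    have h2 := mul_le_mul_of_nonneg_left (nz_one hn h4 hD hα.1) (wt_nonneg ht α)
    refine h2.trans (le_of_eq ?_)
    ring
  refine h1.trans ?_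
  rw [Finset.sum_add_distrib, ← Finset.mul_sum, ← Finset.mul_sum]
  refine add_le_add le_rfl (mul_le_mul_of_nonneg_left ?_ (by positivity))
  refine Finset.sum_le_sum_of_subset_of_nonneg (filter_subset _ _) fun α _ _ => ?_
  have h3 : 0 ≤ ∑ j, D j j α ^ 2 := Finset.sum_nonneg fun _ _ => sq_nonneg _
  have h4 := wt_nonneg ht α
  positivity

end Vale.Agent.P146.R3.H924
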