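import Vale.Agent.P146.R3.H597.Cut
import Vale.Agent.P146.R3.H924.NzSum

/-!
# P146: the rows R1a, R1b, R1c: exchangeability, the mean, the part without edges at `j`
-/

open MeasureTheory ProbabilityTheory Finset

namespace Vale.Agent.P146.R3.H924

open Vale.Agent.P146 Vale.Agent.P146.Ub.Cv Vale.Agent.P146.H605 Vale.Agent.P146.H453
  Vale.Agent.P146.R2 Vale.Agent.P146.R3

variable {n : ℕ} (β : ℝ)

/-- the first family is equivariant under all the permutations of the sites -/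
theorem eqv_CC (k : ℕ) : Eqv (fun j : Fin n => CC β j k) := by
  refine eqv_all (C := fun j k => CC β j k) (fun j k => CC_rec β j k) ?_ k
  intro π j v α
  simp only
  rw [CC_zero, CC_zero]
  exact co_f2_perm β π j v α

/-- R1a -/
theorem stPerm : StPerm := fun _ β π j k v α => eqv_CC β k π j v α

lemma ff_dom (j : Fin n) (k : ℕ) :
    Dom (fun g => ∑ u, H432.cheb k (H432.WW g) j u * f2 β j u g) :=
  Dom.sum _ fun u _ => (H432.dom_cheb k j u).mul (f2_dom β j u)

lemma Yn_dom (k : ℕ) : Dom (Yn β n k) := (Dom.sum _ fun j _ => ff_dom β j k).const_mul _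

lemma co_Yn (k : ℕ) (α : MI n) : co (Yn β n k) α = (n : ℝ)⁻¹ * ∑ j, CC β j k j α := by
  unfold Yn
  rw [H749.co_const_mul, H749.co_sum _ fun j _ => ff_dom β j k]
  rfl

lemma mn_eq (k : ℕ) : mn β n k = co (Yn β n k) 0 := by
  rw [H432.co_zero]
  rfl

/-- R1b -/
theorem stZero : StZero := by
  intro n β j k
  rw [mn_eq, co_Yn]
  have h2 : ∀ i : Fin n, CC β i k i 0 = CC β j k j 0 := fun i =>
    eqv_zero_mi (eqv_CC β k) i j
  have hn : (n : ℝ) ≠ 0 := by
    have : 0 < n := lt_of_le_of_lt (Nat.zero_le _) j.2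
    exact_mod_cast this.ne'
  rw [Finset.sum_congr rfl fun i _ => h2 i, Finset.sum_const, Finset.card_univ,
    Fintype.card_fin, nsmul_eq_mul, ← mul_assoc, inv_mul_cancel₀ hn, one_mul]

lemma co_const (m : ℝ) {α : MI n} (hα : α ≠ 0) : co (fun _ : Pair n → ℝ => m) α = 0 := by
  unfold co
  rw [integral_const_mul, H749.int_heM, if_neg hα, mul_zero]

/-- Bessel's inequality for `Yn` -/
lemma bes {t : ℝ} (h0 : 0 ≤ t) (h1 : t ≤ 1) (L k : ℕ) :
    ∑ α ∈ (ML n L).filter (fun α => α ≠ 0),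
        H453.wt t α * ((n : ℝ)⁻¹ * ∑ j, CC β j k j α) ^ 2 ≤
      ∫ g, (Yn β n k g - mn β n k) ^ 2 ∂(disorder n) := by
  have hc : Dom (fun _ : Pair n → ℝ => mn β n k) := Dom.const _
  have hA : Dom (fun g => Yn β n k g - mn β n k) := (Yn_dom β k).sub hc
  have hb := H749.bessel hA zero_le_one le_rfl ((ML n L).filter fun α => α ≠ 0)
  rw [H432.QQ_one'] at hb
  refine le_trans (Finset.sum_le_sum fun α hα => ?_) hb
  rw [mem_filter] at hα
  have e1 : co (fun g => Yn β n k g - mn β n k) α = (n : ℝ)⁻¹ * ∑ j, CC β j k j α := by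
    rw [H749.co_sub (Yn_dom β k) hc, co_const _ hα.2, sub_zero, co_Yn]
  rw [e1]
  refine mul_le_mul_of_nonneg_right ?_ (sq_nonneg _)
  unfold H453.wt H453.tot
  have h2 : t ^ (∑ e, α e) ≤ 1 ^ (∑ e, α e) := pow_le_pow_left₀ h0 h1 _
  exact div_le_div_of_nonneg_right h2 (by positivity)

/-- R1c -/
theorem stE : StE := by
  intro n β t L k h0 h1 h4 hn
  have hD := eqv_CC (n := n) β k
  have h2 := nz_sum h0 (L := L) (by omega) h4 hD
  have h3 := bes (n := n) β h0 h1 L k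
  have h5 : (8 * L / n : ℝ) ≤ 100 * ((L : ℝ) + 1) ^ 2 / n := by
    refine div_le_div_of_nonneg_right ?_ (Nat.cast_nonneg n)
    nlinarith [(Nat.cast_nonneg L : (0 : ℝ) ≤ L)]
  have h6 : 0 ≤ (n : ℝ)⁻¹ * ∑ j : Fin n, nv t L (CC β j k) j :=
    mul_nonneg (by positivity) (Finset.sum_nonneg fun j _ => nv_nonneg h0 L _ _)
  have h7 := mul_le_mul_of_nonneg_right h5 h6
  unfold nvE
  linarith

end Vale.Agent.P146.R3.H924
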