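import Vale.Agent.P146.Bdl.B40

/-!
# P146: the end of Guerra's path (the fields alone)
-/

open MeasureTheory ProbabilityTheory

namespace Vale.Agent.P146.R3.H924

open Vale.Agent.P157 (spin)
open Vale.Agent.P157.Par (Path Exponents spinPart)
open Vale.Agent.P146.Sk
open Vale.Agent.P146.Sk.Gen (gF)

/-- The free energy of the fields alone, for strengths which add up to the path. -/
theorem end_of {N K : ℕ} (hN : 0 < N) {m : ℕ → ℝ} (hm : Exponents K m) {β y : ℝ}
    {q s : ℕ → ℝ} (hs : ∀ j ≤ K, 0 ≤ s j)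
    (hq : ∀ l ≤ K, ∑ j ∈ Finset.range (l + 1), s j ^ 2 = β ^ 2 * q l) :
    gF K m (Pw2.Ey N β y 0 0) (spin (N := N)) s =
      spinPart K m (fun l => β ^ 2 * q l) + β ^ 2 * q K / 2 := by
  have e : Pw2.Ey N β y 0 0 = Esk N β 0 0 0 := by
    funext g x
    unfold Pw2.Ey Esk
    ring
  rw [e, u4_gF hN hm 0 hs, hq K le_rfl]
  have h1 : spinPart K m (fun l => ∑ j ∈ Finset.range (l + 1), s j ^ 2) =
      spinPart K m (fun l => β ^ 2 * q l) := by
    unfold spinPart
    rw [Vale.Agent.P157.Lv.br_cascade_congr (m := m)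
      (q := fun l => ∑ j ∈ Finset.range (l + 1), s j ^ 2) (q' := fun l => β ^ 2 * q l) hq]
    simp only [hq 0 (Nat.zero_le K), hq K le_rfl]
  rw [h1]
  ring

/-- The strengths of Guerra's path add up to the path. -/
lemma sum_strength {K : ℕ} {β : ℝ} {q : ℕ → ℝ} (hq : Path K q) {l : ℕ} (hl : l ≤ K) :
    ∑ j ∈ Finset.range (l + 1), (β * √(Vale.Agent.P157.Par.incr q j)) ^ 2 = β ^ 2 * q l := by
  rw [← Ub.sum_incr' q l, Finset.mul_sum]
  refine Finset.sum_congr rfl fun j hj => ?_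
  have hj' : j ≤ K := by
    have := Finset.mem_range.1 hj
    omega
  rw [mul_pow, Real.sq_sqrt (Ub.incr_nonneg' hq hj')]

/-- **The end of Guerra's path.** -/
theorem end_path {N K : ℕ} (hN : 0 < N) {m : ℕ → ℝ} (hm : Exponents K m) {β y : ℝ}
    (hβ : 0 ≤ β) {q : ℕ → ℝ} (hq : Path K q) :
    gF K m (Pw2.Ey N β y 0 0) (spin (N := N))
      (fun l => β * √(Vale.Agent.P157.Par.incr q l)) =
      spinPart K m (fun l => β ^ 2 * q l) + β ^ 2 * q K / 2 :=
  end_of hN hm (fun _ _ => mul_nonneg hβ (Real.sqrt_nonneg _)) fun _ hl => sum_strength hq hl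

end Vale.Agent.P146.R3.H924
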