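import Vale.Agent.P146.R2.H453.Core

/-!
# P146: parity and exchangeability are preserved by the recursion
-/

open Finset

namespace Vale.Agent.P146.R3.H924

open Vale.Agent.P146.H453

variable {n : ℕ}

/-! ### parity -/

lemma par_up {j : Fin n} {A : Fam n} (hA : Par j A) : Par j (up A) := by
  intro v α hne u
  unfold up at hne
  have h1 : ∃ e ∈ st v, A (ot v e) (α + un e) ≠ 0 := by
    by_contra hcon
    push Not at hcon
    apply hne
    rw [Finset.sum_eq_zero hcon, mul_zero]
  obtain ⟨e, h3, h2⟩ := h1
  have h4 := hA (ot v e) (α + un e) h2 u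
  rw [deg_add, deg_un h3 u] at h4
  split_ifs at h4 ⊢ <;> simp only [Nat.even_iff] at h4 ⊢ <;> omega

lemma sub_un_add {α : MI n} {e : Pair n} (h : α e ≠ 0) : α - un e + un e = α := by
  funext x
  by_cases hx : x = e
  · subst hx
    simp only [Pi.add_apply, Pi.sub_apply, un_self]
    omega
  · simp [un_ne hx]

lemma par_dn {j : Fin n} {A : Fam n} (hA : Par j A) : Par j (dn A) := by
  intro v α hne u
  unfold dn at hne
  have h1 : ∃ e ∈ st v, (α e : ℝ) * A (ot v e) (α - un e) ≠ 0 := by
    by_contra hcon
    push Not at hcon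
    apply hne
    rw [Finset.sum_eq_zero hcon, mul_zero]
  obtain ⟨e, h3, h2⟩ := h1
  have h5 : α e ≠ 0 := by
    intro h
    rw [h] at h2
    simp at h2
  have h6 : A (ot v e) (α - un e) ≠ 0 := right_ne_zero_of_mul h2
  have h4 := hA (ot v e) (α - un e) h6 u
  have h7 : deg α u = deg (α - un e) u + deg (un e) u := by
    rw [← deg_add, sub_un_add h5]
  rw [h7, deg_un h3 u]
  split_ifs at h4 ⊢ <;> simp only [Nat.even_iff] at h4 ⊢ <;> omega

lemma par_add {j : Fin n} {A B : Fam n} (hA : Par j A) (hB : Par j B) : Par j (A + B) := by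
  intro v α hne u
  by_cases h : A v α = 0
  · refine hB v α ?_ u
    intro h'
    apply hne
    simp [h, h']
  · exact hA v α h u

lemma par_neg {j : Fin n} {A : Fam n} (hA : Par j A) : Par j (-A) := by
  intro v α hne u
  refine hA v α ?_ u
  intro h'
  apply hne
  simp [h']

lemma par_sub {j : Fin n} {A B : Fam n} (hA : Par j A) (hB : Par j B) : Par j (A - B) := by
  rw [sub_eq_add_neg]
  exact par_add hA (par_neg hB)

lemma par_zero (j : Fin n) : Par j (0 : Fam n) := fun _ _ h => absurd rfl h

/-- the parity of all the families -/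
theorem par_all {j : Fin n} {C : ℕ → Fam n}
    (hC : ∀ k, C (k + 1) = up (C k) + dn (C k) - pv C k) (h0 : Par j (C 0)) (k : ℕ) :
    Par j (C k) := by
  induction k using Nat.strong_induction_on with
  | _ k ih =>
    cases k with
    | zero => exact h0
    | succ k =>
      rw [hC k]
      have hk := ih k (by omega)
      refine par_sub (par_add (par_up hk) (par_dn hk)) ?_
      cases k with
      | zero => exact par_zero j
      | succ k => exact ih k (by omega)

/-! ### exchangeability -/

/-- equivariance under all the permutations of the sites -/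
def Eqv (C : Fin n → Fam n) : Prop :=
  ∀ (π : Equiv.Perm (Fin n)) (j v : Fin n) (α : MI n),
    C (π j) (π v) (fun e => α ((pe π).symm e)) = C j v α

/-- sums over the star of a permuted vertex -/
lemma sum_st_perm {M : Type*} [AddCommMonoid M] (π : Equiv.Perm (Fin n)) (v : Fin n)
    (F : Pair n → M) : ∑ e ∈ st (π v), F e = ∑ e ∈ st v, F (pe π e) := by
  symm
  refine Finset.sum_nbij' (fun e => pe π e) (fun e => (pe π).symm e) ?_ ?_ ?_ ?_ ?_
  · intro e he
    exact (pf_mem π he).1
  · intro e he
    have h := (pf_mem π.symm he).1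
    rw [Equiv.symm_apply_apply] at h
    exact h
  · intro e _
    exact Equiv.symm_apply_apply _ _
  · intro e _
    exact Equiv.apply_symm_apply _ _
  · intro _ _
    rfl

lemma ot_perm (π : Equiv.Perm (Fin n)) {v : Fin n} {e : Pair n} (h : e ∈ st v) :
    ot (π v) (pe π e) = π (ot v e) := (pf_mem π h).2

lemma un_perm_sub (π : Equiv.Perm (Fin n)) (α : MI n) (e : Pair n) :
    (fun x => (α - un e) ((pe π).symm x)) = (fun x => α ((pe π).symm x)) - un (pe π e) := by
  funext x
  simp only [Pi.sub_apply]
  congr 1
  by_cases h : x = pe π e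
  · rw [h, Equiv.symm_apply_apply, un_self, un_self]
  · rw [un_ne h, un_ne]
    intro h'
    apply h
    rw [← h', Equiv.apply_symm_apply]

lemma eqv_up {C : Fin n → Fam n} (hC : Eqv C) : Eqv (fun j => up (C j)) := by
  intro π j v α
  simp only [up]
  rw [sum_st_perm]
  congr 1
  refine Finset.sum_congr rfl fun e he => ?_
  rw [ot_perm π he, ← un_perm, hC]

lemma eqv_dn {C : Fin n → Fam n} (hC : Eqv C) : Eqv (fun j => dn (C j)) := by
  intro π j v α
  simp only [dn]
  rw [sum_st_perm]
  congr 1
  refine Finset.sum_congr rfl fun e he => ?_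
  rw [ot_perm π he, ← un_perm_sub, hC, Equiv.symm_apply_apply]

lemma eqv_zero : Eqv (fun _ : Fin n => (0 : Fam n)) := fun _ _ _ _ => rfl

/-- the exchangeability of all the families -/
theorem eqv_all {C : Fin n → ℕ → Fam n}
    (hC : ∀ j k, C j (k + 1) = up (C j k) + dn (C j k) - pv (C j) k)
    (h0 : Eqv (fun j => C j 0)) (k : ℕ) : Eqv (fun j => C j k) := by
  induction k using Nat.strong_induction_on with
  | _ k ih =>
    cases k with
    | zero => exact h0
    | succ k =>
      have hk := ih k (by omega)
      have h1 := eqv_up hk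
      have h2 := eqv_dn hk
      have h3 : Eqv (fun j => pv (C j) k) := by
        cases k with
        | zero => exact eqv_zero
        | succ k => exact ih k (by omega)
      intro π j v α
      have e1 := h1 π j v α
      have e2 := h2 π j v α
      have e3 := h3 π j v α
      simp only at e1 e2 e3 ⊢
      rw [hC (π j) k, hC j k]
      simp only [Pi.add_apply, Pi.sub_apply]
      rw [e1, e2, e3]

/-- the permutation of a multi-index which does not see the permutation -/
lemma perm_fix {j j' : Fin n} {α : MI n} (h : deg α j = 0) (h' : deg α j' = 0) :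
    (fun x => α ((pe (Equiv.swap j j')).symm x)) = α := by
  funext x
  change α (pf (Equiv.swap j j').symm x) = α x
  rw [Equiv.symm_swap]
  rw [deg_zero_iff] at h h'
  by_cases c1 : x ∈ st j
  · rw [h x c1]
    have := (pf_mem (Equiv.swap j j') c1).1
    rw [Equiv.swap_apply_left] at this
    exact h' _ this
  · by_cases c2 : x ∈ st j'
    · rw [h' x c2]
      have := (pf_mem (Equiv.swap j j') c2).1
      rw [Equiv.swap_apply_right] at this
      exact h _ this
    · rw [mem_st, not_or] at c1 c2
      rw [pf_fix]
      · exact Equiv.swap_apply_of_ne_of_ne c1.1 c2.1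
      · exact Equiv.swap_apply_of_ne_of_ne c1.2 c2.2

/-- the diagonal coefficients agree away from the multi-index -/
theorem eqv_diag {C : Fin n → Fam n} (hC : Eqv C) {j j' : Fin n} {α : MI n}
    (h : deg α j = 0) (h' : deg α j' = 0) : C j j α = C j' j' α := by
  have h1 := hC (Equiv.swap j j') j j α
  rw [perm_fix h h', Equiv.swap_apply_left] at h1
  exact h1.symm

lemma deg_zero_mi (v : Fin n) : deg (0 : MI n) v = 0 := by
  rw [deg_zero_iff]
  intro e _
  rfl

/-- the mean does not depend on the vertex -/
theorem eqv_zero_mi {C : Fin n → Fam n} (hC : Eqv C) (j j' : Fin n) :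
    C j j 0 = C j' j' 0 := eqv_diag hC (deg_zero_mi j) (deg_zero_mi j')

end Vale.Agent.P146.R3.H924
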