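import Vale.Agent.P146.R3.H732.LBDef
import Vale.Agent.P146.Bdl.B42
import Vale.Agent.P146.Bd4.B1

/-!
# P146: the explicit lower bound, the numbers of the last step

From the lower bound `XQ` for the response of the free energy to a spectral perturbation at the
edge of the spectrum, the small ball probabilities and the variance of the free energy.
-/

open MeasureTheory ProbabilityTheory Filter Topology

namespace Vale.Agent.P146.R3.H924.Low5

open Vale.Agent.P146 Vale.Agent.P146.R3.H732.LB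
open Vale.Agent.P146.Sk (pN)
open Vale.Agent.P157.Par (Path Exponents)

/-- The conclusion at a fixed `N` and a small parameter `t`. -/
lemma core {D E : ℕ} (hE8 : 8 ≤ E) (hE : E ≤ 18) {β : ℝ} (hβ : 1 < β) (hX : XQ D E β (Sh.P0 β)) :
    ∃ C₁ B T : ℝ, 1 ≤ C₁ ∧ 1 ≤ B ∧ 0 < T ∧ T ≤ 1 ∧ B * T ≤ 1 / 4 ∧
      ∀ (N : ℕ) (t r : ℝ), 0 < N → 0 < t → t ≤ T → 1 ≤ N * t ^ 36 → 0 ≤ r → C₁ * r = t ^ D →
        N * Sx.pv β - ∫ g, freeEnergy N β g ∂(disorder N) ≤ r * N → ∀ a K : ℝ, 0 < K →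
        (disorder N).real {g | |freeEnergy N β g - a| ≤ K} ≤ B * (K * t + t ^ 3) := by
  have hβ0 : 0 < β := by linarith
  obtain ⟨Cx, hCx, hx⟩ := hX
  obtain ⟨Cs, hCs, hs⟩ := Pw2.spreadq hβ0
  have hCx0 : 0 < Cx := by linarith
  have hCs0 : 0 < Cs := by linarith
  have hB1 : 1 ≤ Cx * Cs * (Cx + 1) := by nlinarith [mul_pos hCx0 hCs0]
  have hB0 : 0 < Cx * Cs * (Cx + 1) := by linarith
  have hS0 : 0 < 4 * (Cx * Cs * (Cx + 1)) + (Cx + Cs + 1) := by positivity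
  refine ⟨Cx ^ 2, Cx * Cs * (Cx + 1), 1 / (4 * (Cx * Cs * (Cx + 1)) + (Cx + Cs + 1)),
    one_le_pow₀ hCx, hB1,
    by positivity, ?_, ?_, ?_⟩
  · rw [div_le_one hS0]
    linarith
  · rw [mul_one_div, div_le_div_iff₀ hS0 (by norm_num)]
    linarith
  intro N t r hN ht htT hNt hr hrt hM a K hK
  have hN0 : (0 : ℝ) < N := by exact_mod_cast hN
  have htS : t * (4 * (Cx * Cs * (Cx + 1)) + (Cx + Cs + 1)) ≤ 1 := by
    rwa [le_div_iff₀ hS0] at htT
  have ht1 : t ≤ 1 := by nlinarith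
  have htc : t * (Cx + Cs + 1) ≤ 1 := by nlinarith
  have hN24 : Cx + Cs + 1 ≤ N * t ^ 24 := by
    have h1 : 0 < t ^ 12 := by positivity
    have h2 : t ^ 12 ≤ t := by
      calc t ^ 12 ≤ t ^ 1 := pow_le_pow_of_le_one ht.le ht1 (by norm_num)
        _ = t := pow_one t
    have h3 : t ^ 12 * (Cx + Cs + 1) ≤ 1 :=
      (mul_le_mul_of_nonneg_right h2 (by linarith)).trans htc
    have h4 : t ^ 12 * (Cx + Cs + 1) ≤ t ^ 12 * (N * t ^ 24) := by
      refine h3.trans (hNt.trans (le_of_eq ?_))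
      ring
    exact le_of_mul_le_mul_left h4 h1
  have hP : Sh.P0 β ≤ pN β N + r := by
    have h1 := Ub.free_mean hN β
    have h2 : Sx.pv β = Real.log 2 + Sh.P0 β := rfl
    rw [h1, h2] at hM
    have h3 : N * (Sh.P0 β - pN β N) ≤ N * r := by linarith
    have := le_of_mul_le_mul_left h3 hN0
    linarith
  obtain ⟨n, m, hm, hdiff⟩ := hx N t r hN ht (by
    rw [le_div_iff₀ hCx0]
    nlinarith) (by linarith) hr hrt.le hP
  have hb2 : t ^ E / Cx ≤ (t ^ 4) ^ 2 := by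
    rw [div_le_iff₀ hCx0, ← pow_mul]
    calc t ^ E ≤ t ^ (4 * 2) := pow_le_pow_of_le_one ht.le ht1 (by omega)
      _ = t ^ (4 * 2) * 1 := (mul_one _).symm
      _ ≤ t ^ (4 * 2) * Cx := mul_le_mul_of_nonneg_left hCx (by positivity)
  have key := hs N n m (t ^ 4) (t ^ E / Cx) (1 / (Cx * t ^ 3)) K a hN hm (by positivity) (by
      rw [le_div_iff₀ hCs0]
      have : t ^ 4 ≤ t := by
        calc t ^ 4 ≤ t ^ 1 := pow_le_pow_of_le_one ht.le ht1 (by norm_num)
          _ = t := pow_one t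
      nlinarith) (by
      rw [← pow_mul, show 4 * 6 = 24 by norm_num]
      linarith) (by positivity) hb2 (by positivity) hK hdiff
  have hsq : √(t ^ 4) = t ^ 2 := by
    rw [show t ^ 4 = (t ^ 2) ^ 2 by ring]
    exact Real.sqrt_sq (by positivity)
  rw [hsq] at key
  have hbN : 1 / (t ^ E / Cx * √(N : ℝ)) ≤ Cx := by
    have h1 : 1 ≤ t ^ 18 * √(N : ℝ) := by
      have h2 : √((N : ℝ) * t ^ 36) = t ^ 18 * √(N : ℝ) := by
        rw [mul_comm, Real.sqrt_mul (by positivity), show t ^ 36 = (t ^ 18) ^ 2 by ring,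
          Real.sqrt_sq (by positivity)]
      rw [← h2, show (1 : ℝ) = √1 by simp]
      exact Real.sqrt_le_sqrt hNt
    have h2 : t ^ 18 * √(N : ℝ) ≤ t ^ E * √(N : ℝ) :=
      mul_le_mul_of_nonneg_right (pow_le_pow_of_le_one ht.le ht1 hE) (Real.sqrt_nonneg _)
    have hsN : 0 < √(N : ℝ) := Real.sqrt_pos.2 hN0
    rw [div_le_iff₀ (by positivity)]
    have h3 : Cx * (t ^ E / Cx * √(N : ℝ)) = t ^ E * √(N : ℝ) := by field_simp
    linarith
  have h1 : 1 / (Cx * t ^ 3) * (disorder N).real {g | |freeEnergy N β g - a| ≤ K} ≤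
      Cs * (K / t ^ 2 + Cx + 1) := by
    refine key.trans (mul_le_mul_of_nonneg_left ?_ hCs0.le)
    linarith
  have h2 := mul_le_mul_of_nonneg_left h1 (by positivity : 0 ≤ Cx * t ^ 3)
  have h3 : Cx * t ^ 3 * (1 / (Cx * t ^ 3) *
      (disorder N).real {g | |freeEnergy N β g - a| ≤ K}) =
      (disorder N).real {g | |freeEnergy N β g - a| ≤ K} := by field_simp
  have h4 : Cx * t ^ 3 * (Cs * (K / t ^ 2 + Cx + 1)) =
      Cx * Cs * (K * t) + Cx * Cs * (Cx + 1) * t ^ 3 := by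
    field_simp
    ring
  rw [h3, h4] at h2
  have h5 : Cx * Cs * (K * t) ≤ Cx * Cs * (Cx + 1) * (K * t) := by
    have h6 : 0 ≤ K * t := by positivity
    have h7 : Cx * Cs ≤ Cx * Cs * (Cx + 1) := by nlinarith [mul_pos hCx0 hCs0]
    exact mul_le_mul_of_nonneg_right h7 h6
  linarith

/-- The size of the parameter. -/
lemma size36 {D : ℕ} (hD : 1 ≤ D) {n : ℕ} (hn : 1 ≤ n) {C₁ M : ℝ} (hC₁ : 1 ≤ C₁)
    (hM : (n : ℝ) ^ (1 - (D : ℝ) / 36) ≤ M) :
    0 < M ∧ 1 ≤ n * ((C₁ * (M / n)) ^ (1 / (D : ℝ))) ^ 36 := by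
  have hn0 : (0 : ℝ) < n := by exact_mod_cast hn
  have hn1 : (1 : ℝ) ≤ n := by exact_mod_cast hn
  have hD0 : (0 : ℝ) < D := by exact_mod_cast hD
  have hM0 : 0 < M := lt_of_lt_of_le (Real.rpow_pos_of_pos hn0 _) hM
  refine ⟨hM0, ?_⟩
  have h1 : (n : ℝ) ^ (-((D : ℝ) / 36)) ≤ C₁ * (M / n) := by
    have h2 : (n : ℝ) ^ (-((D : ℝ) / 36)) = (n : ℝ) ^ (1 - (D : ℝ) / 36) / n := by
      rw [← Real.rpow_sub_one hn0.ne']
      congr 1
      ring
    rw [h2]
    have h3 : (n : ℝ) ^ (1 - (D : ℝ) / 36) / n ≤ M / n := div_le_div_of_nonneg_right hM hn0.le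
    have h4 : 0 ≤ M / n := by positivity
    nlinarith
  have h2 : (n : ℝ) ^ (-1 : ℝ) ≤ ((C₁ * (M / n)) ^ (1 / (D : ℝ))) ^ 36 := by
    rw [← Real.rpow_natCast, ← Real.rpow_mul (by positivity)]
    have h3 : (n : ℝ) ^ (-1 : ℝ) = ((n : ℝ) ^ (-((D : ℝ) / 36))) ^ (1 / (D : ℝ) * (36 : ℕ)) := by
      rw [← Real.rpow_mul hn0.le]
      congr 1
      push_cast
      field_simp
    rw [h3]
    exact Real.rpow_le_rpow (by positivity) h1 (by positivity)
  calc (1 : ℝ) = n * (n : ℝ) ^ (-1 : ℝ) := by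
        rw [Real.rpow_neg_one]
        field_simp
    _ ≤ _ := mul_le_mul_of_nonneg_left h2 hn0.le

/-- **The numbers of the last step.** -/
theorem low_of {D E : ℕ} (hD : 1 ≤ D) (hE8 : 8 ≤ E) (hE : E ≤ 18) {β : ℝ} (hβ : 1 < β)
    (hX : XQ D E β (Sh.P0 β)) : ∃ c C : ℝ, 0 < c ∧ 1 ≤ C ∧
    (∀ n : ℕ, 1 ≤ n → ∀ M : ℝ, (n : ℝ) ^ (1 - (D : ℝ) / 36) ≤ M →
      n * Sx.pv β - ∫ g, freeEnergy n β g ∂(disorder n) ≤ M → ∀ a K : ℝ, 0 < K →
      (disorder n).real {g | |freeEnergy n β g - a| ≤ K} ≤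
        C * (K + 1) * (M / n) ^ (1 / (D : ℝ))) ∧
    ∀ᶠ n : ℕ in atTop, ∀ M : ℝ, (n : ℝ) ^ (1 - (D : ℝ) / 36) ≤ M →
      n * Sx.pv β - ∫ g, freeEnergy n β g ∂(disorder n) ≤ M →
      c * (n / M) ^ (2 / (D : ℝ)) ≤ Var[freeEnergy n β; disorder n] := by
  obtain ⟨C₁, B, T, hC₁, hB, hT, hT1, hBT, h⟩ := core hE8 hE hβ hX
  have hC₁0 : 0 < C₁ := by linarith
  have hB0 : 0 < B := by linarith
  have hD0 : (0 : ℝ) < D := by exact_mod_cast hD
  have hDr : 1 / (D : ℝ) ≤ 1 := by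
    rw [div_le_one hD0]
    exact_mod_cast hD
  -- the parameter
  have htD : ∀ x : ℝ, 0 ≤ x → (x ^ (1 / (D : ℝ))) ^ D = x := by
    intro x hx
    rw [← Real.rpow_natCast, ← Real.rpow_mul hx, one_div, inv_mul_cancel₀ hD0.ne',
      Real.rpow_one]
  -- the variance for small parameters
  have hvar : ∀ n : ℕ, 1 ≤ n → ∀ M : ℝ, (n : ℝ) ^ (1 - (D : ℝ) / 36) ≤ M →
      n * Sx.pv β - ∫ g, freeEnergy n β g ∂(disorder n) ≤ M →
      (C₁ * (M / n)) ^ (1 / (D : ℝ)) ≤ T →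
      1 / (32 * B ^ 2 * C₁ ^ (2 / (D : ℝ))) * (n / M) ^ (2 / (D : ℝ)) ≤
        Var[freeEnergy n β; disorder n] := by
    intro n hn M hM hMn ht
    have hn0 : (0 : ℝ) < n := by exact_mod_cast hn
    obtain ⟨hM0, h36⟩ := size36 hD hn hC₁ hM
    obtain ⟨t, htd⟩ : ∃ t, t = (C₁ * (M / n)) ^ (1 / (D : ℝ)) := ⟨_, rfl⟩
    rw [← htd] at h36 ht
    have ht0 : 0 < t := by rw [htd]; exact Real.rpow_pos_of_pos (by positivity) _
    have hK : 0 < 1 / (4 * B * t) := by positivity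
    have h1 : ∀ a : ℝ, (disorder n).real {g | |freeEnergy n β g - a| ≤ 1 / (4 * B * t)} ≤
        1 / 2 := by
      intro a
      refine (h n t (M / n) hn ht0 ht h36 (by positivity) (by rw [htd, htD _ (by positivity)])
        (by rw [div_mul_cancel₀ _ hn0.ne']; exact hMn) a _ hK).trans ?_
      have e1 : B * (1 / (4 * B * t) * t + t ^ 3) = 1 / 4 + B * t ^ 3 := by
        field_simp
      have e2 : t ^ 3 ≤ T := by
        calc t ^ 3 ≤ t ^ 1 := pow_le_pow_of_le_one ht0.le (ht.trans hT1) (by norm_num)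
          _ = t := pow_one t
          _ ≤ T := ht
      have e3 : B * t ^ 3 ≤ B * T := mul_le_mul_of_nonneg_left e2 hB0.le
      rw [e1]
      linarith
    have h2 := Pw2.var_of_ball hn hK h1
    refine le_trans (le_of_eq ?_) h2
    have e1 : t ^ 2 = C₁ ^ (2 / (D : ℝ)) * (M / n) ^ (2 / (D : ℝ)) := by
      rw [htd, ← Real.mul_rpow hC₁0.le (by positivity), ← Real.rpow_natCast,
        ← Real.rpow_mul (by positivity)]
      congr 1
      push_cast
      ring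
    have e2 : (n / M) ^ (2 / (D : ℝ)) * (M / n) ^ (2 / (D : ℝ)) = 1 := by
      rw [← Real.mul_rpow (by positivity) (by positivity)]
      have : (n : ℝ) / M * (M / n) = 1 := by field_simp
      rw [this, Real.one_rpow]
    have e3 : 0 < C₁ ^ (2 / (D : ℝ)) := Real.rpow_pos_of_pos hC₁0 _
    have e4 : 0 < (M / (n : ℝ)) ^ (2 / (D : ℝ)) := Real.rpow_pos_of_pos (by positivity) _
    have e5 : (n / M) ^ (2 / (D : ℝ)) = 1 / (M / (n : ℝ)) ^ (2 / (D : ℝ)) := by
      rw [eq_div_iff e4.ne']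
      exact e2
    have e6 : (1 / (4 * B * t)) ^ 2 * (1 - 1 / 2) = 1 / (32 * B ^ 2 * t ^ 2) := by
      field_simp
      norm_num
    rw [e5, e6, e1]
    field_simp
  obtain ⟨δ, hδ⟩ : ∃ δ, δ = T ^ D / C₁ := ⟨_, rfl⟩
  have hδ0 : 0 < δ := by rw [hδ]; positivity
  have hδT : (C₁ * δ) ^ (1 / (D : ℝ)) = T := by
    have e : C₁ * δ = T ^ D := by rw [hδ]; field_simp
    rw [e, ← Real.rpow_natCast, ← Real.rpow_mul hT.le, mul_one_div_cancel hD0.ne',
      Real.rpow_one]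
  refine ⟨1 / (32 * B ^ 2 * C₁ ^ (2 / (D : ℝ))), 2 * B * C₁ + C₁ / T, by positivity, ?_, ?_, ?_⟩
  · have h1 : 0 < C₁ / T := by positivity
    nlinarith [mul_pos hB0 hC₁0]
  · intro n hn M hM hMn a K hK
    have hn0 : (0 : ℝ) < n := by exact_mod_cast hn
    obtain ⟨hM0, h36⟩ := size36 hD hn hC₁ hM
    obtain ⟨t, htd⟩ : ∃ t, t = (C₁ * (M / n)) ^ (1 / (D : ℝ)) := ⟨_, rfl⟩
    rw [← htd] at h36
    have ht0 : 0 < t := by rw [htd]; exact Real.rpow_pos_of_pos (by positivity) _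
    have hr0 : 0 < (M / (n : ℝ)) ^ (1 / (D : ℝ)) := Real.rpow_pos_of_pos (by positivity) _
    have htr : t ≤ C₁ * (M / (n : ℝ)) ^ (1 / (D : ℝ)) := by
      rw [htd, Real.mul_rpow hC₁0.le (by positivity)]
      refine mul_le_mul_of_nonneg_right ?_ hr0.le
      calc C₁ ^ (1 / (D : ℝ)) ≤ C₁ ^ (1 : ℝ) := Real.rpow_le_rpow_of_exponent_le hC₁ hDr
        _ = C₁ := Real.rpow_one _
    rcases le_or_gt t T with htT | htT
    · refine (h n t (M / n) hn ht0 htT h36 (by positivity) (by rw [htd, htD _ (by positivity)])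
        (by rw [div_mul_cancel₀ _ hn0.ne']; exact hMn) a K hK).trans ?_
      have e1 : t ^ 3 ≤ t := by
        calc t ^ 3 ≤ t ^ 1 := pow_le_pow_of_le_one ht0.le (htT.trans hT1) (by norm_num)
          _ = t := pow_one t
      have e2 : B * (K * t + t ^ 3) ≤ B * ((K + 1) * t) := by
        refine mul_le_mul_of_nonneg_left ?_ hB0.le
        linarith
      have e3 : B * ((K + 1) * t) ≤ B * ((K + 1) * (C₁ * (M / (n : ℝ)) ^ (1 / (D : ℝ)))) := by
        have : 0 ≤ K + 1 := by linarith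
        gcongr
      refine e2.trans (e3.trans ?_)
      have e4 : B * ((K + 1) * (C₁ * (M / (n : ℝ)) ^ (1 / (D : ℝ)))) =
          B * C₁ * (K + 1) * (M / (n : ℝ)) ^ (1 / (D : ℝ)) := by ring
      rw [e4]
      have e5 : B * C₁ ≤ 2 * B * C₁ + C₁ / T := by
        have : 0 < C₁ / T := by positivity
        nlinarith [mul_pos hB0 hC₁0]
      have : 0 ≤ K + 1 := by linarith
      gcongr
    · refine (measureReal_le_one (μ := disorder n)).trans ?_
      have e1 : 1 ≤ C₁ / T * (M / (n : ℝ)) ^ (1 / (D : ℝ)) := by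
        have e2 : C₁ / T * (M / (n : ℝ)) ^ (1 / (D : ℝ)) =
            C₁ * (M / (n : ℝ)) ^ (1 / (D : ℝ)) / T := by ring
        rw [e2, le_div_iff₀ hT]
        linarith
      have e3 : C₁ / T * (M / (n : ℝ)) ^ (1 / (D : ℝ)) ≤
          (2 * B * C₁ + C₁ / T) * (M / (n : ℝ)) ^ (1 / (D : ℝ)) := by
        refine mul_le_mul_of_nonneg_right ?_ hr0.le
        nlinarith [mul_pos hB0 hC₁0]
      have e4 : (2 * B * C₁ + C₁ / T) * (M / (n : ℝ)) ^ (1 / (D : ℝ)) * 1 ≤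
          (2 * B * C₁ + C₁ / T) * (M / (n : ℝ)) ^ (1 / (D : ℝ)) * (K + 1) := by
        refine mul_le_mul_of_nonneg_left (by linarith) ?_
        have : 0 < C₁ / T := by positivity
        positivity
      calc (1 : ℝ) ≤ (2 * B * C₁ + C₁ / T) * (M / (n : ℝ)) ^ (1 / (D : ℝ)) * (K + 1) := by
            linarith
        _ = _ := by ring
  · obtain ⟨C₂, hC₂, -, -, hlow⟩ := Sx.moment hβ.le
    have hl1 : Tendsto (fun n : ℕ => C₂ * (n : ℝ) ^ (-(1 / 36) : ℝ)) atTop (𝓝 (C₂ * 0)) :=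
      ((tendsto_rpow_neg_atTop (by norm_num : (0 : ℝ) < 1 / 36)).comp
        tendsto_natCast_atTop_atTop).const_mul _
    have hl2 : Tendsto (fun n : ℕ => (n : ℝ) ^ (-((D : ℝ) / 36))) atTop (𝓝 0) :=
      (tendsto_rpow_neg_atTop (by positivity : (0 : ℝ) < (D : ℝ) / 36)).comp
        tendsto_natCast_atTop_atTop
    rw [mul_zero] at hl1
    filter_upwards [eventually_ge_atTop 1, hl1.eventually (eventually_le_nhds hδ0),
      hl2.eventually (eventually_le_nhds hδ0)] with n hn h1 h2 M hM hMn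
    have hn0 : (0 : ℝ) < n := by exact_mod_cast hn
    obtain ⟨hM0, -⟩ := size36 hD hn hC₁ hM
    rcases le_or_gt ((C₁ * (M / n)) ^ (1 / (D : ℝ))) T with ht | ht
    · exact hvar n hn M hM hMn ht
    · have hδM : δ * n ≤ M := by
        by_contra hcon
        push Not at hcon
        have e1 : M / n ≤ δ := by
          rw [div_le_iff₀ hn0]
          exact hcon.le
        have e2 : (C₁ * (M / n)) ^ (1 / (D : ℝ)) ≤ (C₁ * δ) ^ (1 / (D : ℝ)) :=
          Real.rpow_le_rpow (by positivity) (by gcongr) (by positivity)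
        rw [hδT] at e2
        linarith
      have k1 : (n : ℝ) ^ (1 - (D : ℝ) / 36) ≤ δ * n := by
        have e1 : (n : ℝ) ^ (1 - (D : ℝ) / 36) = (n : ℝ) ^ (-((D : ℝ) / 36)) * n := by
          rw [← Real.rpow_add_one hn0.ne']
          congr 1
          ring
        rw [e1]
        exact mul_le_mul_of_nonneg_right h2 hn0.le
      have k2 : n * Sx.pv β - ∫ g, freeEnergy n β g ∂(disorder n) ≤ δ * n := by
        have e1 := hlow n hn
        have e2 : C₂ * (n : ℝ) ^ (35 / 36 : ℝ) = C₂ * (n : ℝ) ^ (-(1 / 36) : ℝ) * n := by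
          rw [mul_assoc, ← Real.rpow_add_one hn0.ne']
          norm_num
        rw [e2] at e1
        have e3 := mul_le_mul_of_nonneg_right h1 hn0.le
        linarith
      have k3 := hvar n hn (δ * n) k1 k2 (by
        rw [mul_div_assoc, div_self hn0.ne', mul_one, hδT])
      refine le_trans (mul_le_mul_of_nonneg_left ?_ (by positivity)) k3
      refine Real.rpow_le_rpow (by positivity) ?_ (by positivity)
      exact div_le_div_of_nonneg_left hn0.le (by positivity) hδM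

end Vale.Agent.P146.R3.H924.Low5
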