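import Vale.Agent.P146.R3.H924.Low5

/-!
# P146: explicit exponents from a rate of convergence of the mean free energy
-/

open MeasureTheory ProbabilityTheory Filter Topology Asymptotics

namespace Vale.Agent.P146.R3.H924.Low5

open Vale.Agent.P146 Vale.Agent.P146.R3.H732.LB

/-- Powers of the logarithm are below every power. -/
lemma log_pow_le (A : ℝ) (k : ℕ) {δ : ℝ} (hδ : 0 < δ) :
    ∀ᶠ n : ℕ in atTop, A * (1 + Real.log n) ^ k ≤ (n : ℝ) ^ δ := by
  have h1 : (fun x : ℝ => (1 + Real.log x) ^ k) =o[atTop] fun x : ℝ => x ^ δ := by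
    rcases Nat.eq_zero_or_pos k with rfl | hk
    · simp only [pow_zero]
      rw [isLittleO_one_left_iff]
      exact tendsto_norm_atTop_atTop.comp (tendsto_rpow_atTop hδ)
    · have hk0 : (0 : ℝ) < k := by exact_mod_cast hk
      have h2 : (fun x : ℝ => 1 + Real.log x) =o[atTop] fun x : ℝ => x ^ (δ / k) := by
        refine IsLittleO.add ?_ (isLittleO_log_rpow_atTop (by positivity))
        rw [isLittleO_one_left_iff]
        exact tendsto_norm_atTop_atTop.comp (tendsto_rpow_atTop (by positivity))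
      have h3 := h2.pow hk
      refine h3.congr' (Eventually.of_forall fun x => rfl) ?_
      filter_upwards [eventually_ge_atTop 0] with x hx
      rw [← Real.rpow_natCast, ← Real.rpow_mul hx, div_mul_cancel₀ _ hk0.ne']
  have h4 := ((h1.const_mul_left A).comp_tendsto tendsto_natCast_atTop_atTop).bound
    (by norm_num : (0 : ℝ) < 1)
  filter_upwards [h4] with n hn
  simp only [Function.comp, Real.norm_eq_abs, one_mul] at hn
  rw [abs_of_nonneg (Real.rpow_nonneg (Nat.cast_nonneg n) δ)] at hn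
  exact (le_abs_self _).trans hn

/-- **Explicit exponents.** -/
theorem explicit_of {D E : ℕ} (hD : 1 ≤ D) (hE8 : 8 ≤ E) (hE : E ≤ 18) {β : ℝ} (hβ : 1 < β)
    (hX : XQ D E β (Sh.P0 β)) {μ A : ℝ} {k : ℕ} (hμ : 1 - (D : ℝ) / 36 ≤ μ)
    (hM : ∀ n : ℕ, 1 ≤ n → n * Sx.pv β - ∫ g, freeEnergy n β g ∂(disorder n) ≤
      A * (n : ℝ) ^ μ * (1 + Real.log n) ^ k) {γ κ : ℝ} (hγ : γ < 2 / D * (1 - μ))
    (hκ0 : 0 < κ) (hκ : 2 * κ < 1 / D * (1 - μ)) :
    ∀ᶠ n : ℕ in atTop, (n : ℝ) ^ γ ≤ Var[freeEnergy n β; disorder n] ∧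
      ∀ a : ℝ, (disorder n).real {g | |freeEnergy n β g - a| ≤ (n : ℝ) ^ κ} ≤
        (n : ℝ) ^ (-κ) := by
  obtain ⟨c, C, hc, hC, h1, h2⟩ := low_of hD hE8 hE hβ hX
  have hD0 : (0 : ℝ) < D := by exact_mod_cast hD
  -- the room in the exponents
  obtain ⟨δ, hδ0, hδ1, hδ2⟩ : ∃ δ : ℝ, 0 < δ ∧ γ < 2 / D * (1 - μ - δ) ∧
      2 * κ < 1 / D * (1 - μ - δ) := by
    refine ⟨min ((2 / D * (1 - μ) - γ) * D / 4) ((1 / D * (1 - μ) - 2 * κ) * D / 2), ?_, ?_, ?_⟩
    · refine lt_min ?_ ?_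
      · have : 0 < 2 / D * (1 - μ) - γ := by linarith
        positivity
      · have : 0 < 1 / D * (1 - μ) - 2 * κ := by linarith
        positivity
    · have e1 : 2 / D * min ((2 / D * (1 - μ) - γ) * D / 4) ((1 / D * (1 - μ) - 2 * κ) * D / 2) ≤
          2 / D * ((2 / D * (1 - μ) - γ) * D / 4) :=
        mul_le_mul_of_nonneg_left (min_le_left _ _) (by positivity)
      have e2 : 2 / D * ((2 / D * (1 - μ) - γ) * D / 4) = (2 / D * (1 - μ) - γ) / 2 := by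
        field_simp
        ring
      rw [e2] at e1
      rw [mul_sub]
      linarith
    · have e1 : 1 / D * min ((2 / D * (1 - μ) - γ) * D / 4) ((1 / D * (1 - μ) - 2 * κ) * D / 2) ≤
          1 / D * ((1 / D * (1 - μ) - 2 * κ) * D / 2) :=
        mul_le_mul_of_nonneg_left (min_le_right _ _) (by positivity)
      have e2 : 1 / D * ((1 / D * (1 - μ) - 2 * κ) * D / 2) = (1 / D * (1 - μ) - 2 * κ) / 2 := by
        field_simp
      rw [e2] at e1
      rw [mul_sub]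
      linarith
  obtain ⟨ρ, hρ⟩ : ∃ ρ, ρ = 1 - μ - δ := ⟨_, rfl⟩
  rw [← hρ] at hδ1 hδ2
  have t1 : Tendsto (fun n : ℕ => 1 / c * (n : ℝ) ^ (-(2 / D * ρ - γ))) atTop (𝓝 (1 / c * 0)) :=
    ((tendsto_rpow_neg_atTop (by linarith)).comp tendsto_natCast_atTop_atTop).const_mul _
  have t2 : Tendsto (fun n : ℕ => 2 * C * (n : ℝ) ^ (-(1 / D * ρ - 2 * κ))) atTop
      (𝓝 (2 * C * 0)) :=
    ((tendsto_rpow_neg_atTop (by linarith)).comp tendsto_natCast_atTop_atTop).const_mul _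
  rw [mul_zero] at t1 t2
  filter_upwards [h2, eventually_ge_atTop 1, log_pow_le (max A 1) k hδ0,
    t1.eventually (eventually_le_nhds one_pos), t2.eventually (eventually_le_nhds one_pos)]
    with n hn2 hn hlog hn3 hn4
  have hn0 : (0 : ℝ) < n := by exact_mod_cast hn
  have hn1 : (1 : ℝ) ≤ n := by exact_mod_cast hn
  have hl0 : 0 ≤ Real.log n := Real.log_nonneg hn1
  have hA1 : 1 ≤ max A 1 := le_max_right _ _
  obtain ⟨M, hMd⟩ : ∃ M, M = (n : ℝ) ^ μ * (max A 1 * (1 + Real.log n) ^ k) := ⟨_, rfl⟩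
  have hk1 : 1 ≤ (1 + Real.log n) ^ k := one_le_pow₀ (by linarith)
  have hμn : 0 < (n : ℝ) ^ μ := Real.rpow_pos_of_pos hn0 _
  have hM1 : (n : ℝ) ^ (1 - (D : ℝ) / 36) ≤ M := by
    rw [hMd]
    calc (n : ℝ) ^ (1 - (D : ℝ) / 36) ≤ (n : ℝ) ^ μ := Real.rpow_le_rpow_of_exponent_le hn1 hμ
      _ = (n : ℝ) ^ μ * (1 * 1) := by ring
      _ ≤ (n : ℝ) ^ μ * (max A 1 * (1 + Real.log n) ^ k) := by gcongr
  have hM2 : n * Sx.pv β - ∫ g, freeEnergy n β g ∂(disorder n) ≤ M := by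
    refine (hM n hn).trans ?_
    rw [hMd]
    calc A * (n : ℝ) ^ μ * (1 + Real.log n) ^ k ≤
        max A 1 * (n : ℝ) ^ μ * (1 + Real.log n) ^ k := by
          gcongr
          exact le_max_left _ _
      _ = _ := by ring
  have hM0 : 0 < M := lt_of_lt_of_le (Real.rpow_pos_of_pos hn0 _) hM1
  have hM3 : M ≤ (n : ℝ) ^ (1 - ρ) := by
    rw [hMd]
    calc (n : ℝ) ^ μ * (max A 1 * (1 + Real.log n) ^ k) ≤ (n : ℝ) ^ μ * (n : ℝ) ^ δ :=
          mul_le_mul_of_nonneg_left hlog hμn.le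
      _ = (n : ℝ) ^ (1 - ρ) := by
          rw [← Real.rpow_add hn0]
          congr 1
          rw [hρ]
          ring
  have hr1 : M / n ≤ (n : ℝ) ^ (-ρ) := by
    rw [div_le_iff₀ hn0, ← Real.rpow_add_one hn0.ne']
    refine hM3.trans (le_of_eq ?_)
    congr 1
    ring
  have hr2 : (n : ℝ) ^ ρ ≤ n / M := by
    rw [le_div_iff₀ hM0]
    calc (n : ℝ) ^ ρ * M ≤ (n : ℝ) ^ ρ * (n : ℝ) ^ (1 - ρ) :=
          mul_le_mul_of_nonneg_left hM3 (Real.rpow_nonneg hn0.le _)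
      _ = n := by
          rw [← Real.rpow_add hn0, show ρ + (1 - ρ) = 1 by ring, Real.rpow_one]
  refine ⟨?_, fun a => ?_⟩
  · refine le_trans ?_ (hn2 M hM1 hM2)
    have e1 : (n : ℝ) ^ (2 / D * ρ) ≤ (n / M) ^ (2 / (D : ℝ)) := by
      rw [mul_comm, Real.rpow_mul hn0.le]
      exact Real.rpow_le_rpow (Real.rpow_nonneg hn0.le _) hr2 (by positivity)
    have e2 : (n : ℝ) ^ γ = (n : ℝ) ^ (-(2 / D * ρ - γ)) * (n : ℝ) ^ (2 / D * ρ) := by
      rw [← Real.rpow_add hn0]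
      congr 1
      ring
    have e3 : (n : ℝ) ^ (-(2 / D * ρ - γ)) ≤ c := by
      have := mul_le_mul_of_nonneg_left hn3 hc.le
      rw [mul_one, ← mul_assoc, mul_one_div_cancel hc.ne', one_mul] at this
      exact this
    rw [e2]
    exact mul_le_mul e3 e1 (Real.rpow_nonneg hn0.le _) hc.le
  · have hnκ : 1 ≤ (n : ℝ) ^ κ := Real.one_le_rpow hn1 hκ0.le
    refine (h1 n hn M hM1 hM2 a _ (by positivity)).trans ?_
    have e1 : (M / n) ^ (1 / (D : ℝ)) ≤ (n : ℝ) ^ (-(1 / D * ρ)) := by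
      have : -(1 / (D : ℝ) * ρ) = -ρ * (1 / D) := by ring
      rw [this, Real.rpow_mul hn0.le]
      exact Real.rpow_le_rpow (by positivity) hr1 (by positivity)
    calc C * ((n : ℝ) ^ κ + 1) * (M / n) ^ (1 / (D : ℝ)) ≤
        C * (2 * (n : ℝ) ^ κ) * (n : ℝ) ^ (-(1 / D * ρ)) := by
          gcongr
          linarith
      _ = 2 * C * (n : ℝ) ^ (-(1 / D * ρ - 2 * κ)) * (n : ℝ) ^ (-κ) := by
          have : (n : ℝ) ^ (-(1 / D * ρ - 2 * κ)) * (n : ℝ) ^ (-κ) =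
              (n : ℝ) ^ κ * (n : ℝ) ^ (-(1 / D * ρ)) := by
            rw [← Real.rpow_add hn0, ← Real.rpow_add hn0]
            congr 1
            ring
          rw [mul_assoc (2 * C), this]
          ring
      _ ≤ 1 * (n : ℝ) ^ (-κ) := mul_le_mul_of_nonneg_right hn4 (Real.rpow_nonneg hn0.le _)
      _ = (n : ℝ) ^ (-κ) := one_mul _

end Vale.Agent.P146.R3.H924.Low5
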