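import Vale.Agent.P146.R3.H924.Low6
import Vale.Agent.P146.R3.H732.LC5

/-!
# P146: the lower bounds with the exponent 9, for every rate of the mean free energy
-/

open MeasureTheory ProbabilityTheory Filter Topology

namespace Vale.Agent.P146.R3.H924.Low9

open Vale.Agent.P146 Vale.Agent.P146.R3.H732.LB Vale.Agent.P146.R3.H924.Low5

/-- **Small balls and the variance against the error of the mean.** -/
theorem low9 {β : ℝ} (hβ : 1 < β) : ∃ c C : ℝ, 0 < c ∧ 1 ≤ C ∧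
    (∀ n : ℕ, 1 ≤ n → ∀ M : ℝ, (n : ℝ) ^ (3 / 4 : ℝ) ≤ M →
      n * Sx.pv β - ∫ g, freeEnergy n β g ∂(disorder n) ≤ M → ∀ a K : ℝ, 0 < K →
      (disorder n).real {g | |freeEnergy n β g - a| ≤ K} ≤
        C * (K + 1) * (M / n) ^ (1 / 9 : ℝ)) ∧
    ∀ᶠ n : ℕ in atTop, ∀ M : ℝ, (n : ℝ) ^ (3 / 4 : ℝ) ≤ M →
      n * Sx.pv β - ∫ g, freeEnergy n β g ∂(disorder n) ≤ M →
      c * (n / M) ^ (2 / 9 : ℝ) ≤ Var[freeEnergy n β; disorder n] := by
  have h := low_of (D := 9) (E := 12) (by norm_num) (by norm_num) (by norm_num) hβ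
    (H732.LC.xq9_unc hβ)
  have e : (1 : ℝ) - ((9 : ℕ) : ℝ) / 36 = 3 / 4 := by norm_num
  rw [e] at h
  push_cast at h
  exact h

/-- **Explicit exponents, for a rate `n^μ` up to logarithms.** -/
theorem explicit9 {β : ℝ} (hβ : 1 < β) {μ A : ℝ} {k : ℕ} (hμ : 3 / 4 ≤ μ)
    (hM : ∀ n : ℕ, 1 ≤ n → n * Sx.pv β - ∫ g, freeEnergy n β g ∂(disorder n) ≤
      A * (n : ℝ) ^ μ * (1 + Real.log n) ^ k) {γ κ : ℝ} (hγ : γ < 2 / 9 * (1 - μ))
    (hκ0 : 0 < κ) (hκ : κ < 1 / 18 * (1 - μ)) :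
    ∀ᶠ n : ℕ in atTop, (n : ℝ) ^ γ ≤ Var[freeEnergy n β; disorder n] ∧
      ∀ a : ℝ, (disorder n).real {g | |freeEnergy n β g - a| ≤ (n : ℝ) ^ κ} ≤
        (n : ℝ) ^ (-κ) := by
  refine explicit_of (D := 9) (E := 12) (by norm_num) (by norm_num) (by norm_num) hβ
    (H732.LC.xq9_unc hβ) (by push_cast; linarith) hM (by push_cast; linarith) hκ0
    (by push_cast; linarith)

end Vale.Agent.P146.R3.H924.Low9
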