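import Vale.Agent.P146.R2.H453.Core

/-!
# P146: the fresh sums at the vertex `j`, restricted to the multi-indices which use `j`
-/

open Finset

namespace Vale.Agent.P146.R3.H924

open Vale.Agent.P146.H453

variable {n : ℕ}

/-- the part of a family away from `j`, with at least two edges at `j` -/
noncomputable def msk (j : Fin n) (A : Fam n) : Fam n :=
  fun v α => if v ≠ j ∧ 2 ≤ deg α j then A v α else 0

lemma msk_fr (j : Fin n) (A : Fam n) : msk j (fr {j} A) = msk j (fr {j} (msk j A)) := by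
  funext v α
  by_cases h : v ≠ j ∧ 2 ≤ deg α j
  · have e1 : ∀ B : Fam n, msk j B v α = B v α := fun B => by unfold msk; rw [if_pos h]
    rw [e1, e1]
    unfold fr
    congr 1
    refine Finset.sum_congr rfl fun e he => ?_
    rw [fs, mem_filter, mem_singleton] at he
    obtain ⟨h1, h2, h3⟩ := he
    unfold msk
    rw [if_pos]
    refine ⟨h2, ?_⟩
    rw [deg_add, deg_un h1 j, if_neg (Ne.symm h.1), if_neg (Ne.symm h2)]
    exact h.2
  · have e1 : ∀ B : Fam n, msk j B v α = 0 := fun B => by unfold msk; rw [if_neg h]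
    rw [e1, e1]

lemma ns_msk_le {t : ℝ} (ht : 0 ≤ t) (L : ℕ) (j : Fin n) (A : Fam n) :
    ns t L (msk j A) ≤ ns t L A := by
  unfold ns nv msk
  refine sum_le_sum fun v _ => sum_le_sum fun α _ => ?_
  refine mul_le_mul_of_nonneg_left ?_ (wt_nonneg ht α)
  split_ifs
  · exact le_rfl
  · rw [zero_pow two_ne_zero]
    exact sq_nonneg _

lemma ns_msk_fk {t : ℝ} (ht : 0 ≤ t) (j : Fin n) (A : Fam n) : ∀ (k L : ℕ),
    t ^ k * ns t L (msk j (fk {j} A k)) ≤ ns t (L + k) (msk j A) := by
  intro k
  induction k with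
  | zero =>
    intro L
    simp [fk]
  | succ k ih =>
    intro L
    rw [fk, msk_fr]
    calc t ^ (k + 1) * ns t L (msk j (fr {j} (msk j (fk {j} A k))))
        ≤ t ^ (k + 1) * ns t L (fr {j} (msk j (fk {j} A k))) :=
          mul_le_mul_of_nonneg_left (ns_msk_le ht L j _) (by positivity)
      _ = t ^ k * (t * ns t L (fr {j} (msk j (fk {j} A k)))) := by ring
      _ ≤ t ^ k * ns t (L + 1) (msk j (fk {j} A k)) :=
          mul_le_mul_of_nonneg_left (fr_norm ht L {j} _) (by positivity)
      _ ≤ ns t (L + 1 + k) (msk j A) := ih (L + 1)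
      _ = ns t (L + (k + 1)) (msk j A) := by
          congr 1
          omega

/-- the part with `deg α v ≥ 1` -/
noncomputable def np (t : ℝ) (L : ℕ) (A : Fam n) (v : Fin n) : ℝ :=
  ∑ α ∈ (ML n L).filter (fun α => 1 ≤ deg α v), wt t α * A v α ^ 2

lemma np_nonneg {t : ℝ} (ht : 0 ≤ t) (L : ℕ) (A : Fam n) (v : Fin n) : 0 ≤ np t L A v :=
  Finset.sum_nonneg fun α _ => mul_nonneg (wt_nonneg ht α) (sq_nonneg _)

lemma np_fr {t : ℝ} (ht : 0 ≤ t) (L : ℕ) (j : Fin n) (A : Fam n) :
    t * np t L (fr {j} A) j ≤ ns t (L + 1) (msk j A) := by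
  set K : Fin n → MI n → ℝ :=
    fun i β => if i ≠ j ∧ 2 ≤ deg β j ∧ deg β i = 1 then A i β ^ 2 else 0 with hK
  have hK0 : ∀ i β, 0 ≤ K i β := by
    intro i β
    simp only [hK]
    split_ifs
    · exact sq_nonneg _
    · exact le_refl _
  have h1 : t * np t L (fr {j} A) j ≤
      ∑ e ∈ st j, t * ∑ α ∈ ML n L, wt t α * K (ot j e) (α + un e) := by
    unfold np
    rw [← Finset.mul_sum, Finset.sum_comm]
    refine mul_le_mul_of_nonneg_left ?_ ht
    rw [Finset.sum_filter]
    refine Finset.sum_le_sum fun α _ => ?_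
    rw [← Finset.mul_sum]
    split_ifs with hd
    · refine mul_le_mul_of_nonneg_left ?_ (wt_nonneg ht α)
      have hn : 0 < n := lt_of_le_of_lt (Nat.zero_le _) j.2
      calc fr {j} A j α ^ 2 ≤
            ((fs {j} j α).card : ℝ) / n * ∑ e ∈ fs {j} j α, A (ot j e) (α + un e) ^ 2 :=
            cs_sum n _ _
        _ ≤ 1 * ∑ e ∈ fs {j} j α, A (ot j e) (α + un e) ^ 2 := by
            refine mul_le_mul_of_nonneg_right ?_ (Finset.sum_nonneg fun _ _ => sq_nonneg _)
            rw [div_le_one (by exact_mod_cast hn)]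
            exact_mod_cast (Finset.card_le_card (fs_sub {j} j α)).trans (card_st_le j)
        _ = ∑ e ∈ fs {j} j α, K (ot j e) (α + un e) := by
            rw [one_mul]
            refine Finset.sum_congr rfl fun e he => ?_
            have he' : e ∈ st j := fs_sub _ _ _ he
            rw [fs, mem_filter] at he
            simp only [hK]
            rw [if_pos]
            refine ⟨ot_ne j e, ?_, ?_⟩
            · rw [deg_add, deg_un_of_mem he']
              omega
            · rw [deg_add, he.2.2, deg_un_of_mem (st_ot j e)]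
        _ ≤ ∑ e ∈ st j, K (ot j e) (α + un e) :=
            sum_le_sum_of_subset_of_nonneg (fs_sub {j} j α) fun e _ _ => hK0 _ _
    · exact mul_nonneg (wt_nonneg ht α) (Finset.sum_nonneg fun e _ => hK0 _ _)
  refine h1.trans ?_
  rw [Finset.sum_congr rfl fun e _ => cv t L e (K (ot j e))]
  calc ∑ e ∈ st j, ∑ β ∈ ML n (L + 1), wt t β * β e * K (ot j e) β
      ≤ ∑ e ∈ st j, nv t (L + 1) (msk j A) (ot j e) := by
        refine Finset.sum_le_sum fun e _ => ?_
        unfold nv
        refine Finset.sum_le_sum fun β _ => ?_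
        by_cases h : ot j e ≠ j ∧ 2 ≤ deg β j ∧ deg β (ot j e) = 1
        · simp only [hK, msk]
          rw [if_pos h, if_pos ⟨h.1, h.2.1⟩]
          have h3 : β e ≤ 1 := by
            rw [← h.2.2]
            exact Finset.single_le_sum (f := fun e => β e) (fun _ _ => Nat.zero_le _)
              (st_ot j e)
          have h4 : (β e : ℝ) ≤ 1 := by exact_mod_cast h3
          have h5 : 0 ≤ wt t β * A (ot j e) β ^ 2 :=
            mul_nonneg (wt_nonneg ht β) (sq_nonneg _)
          nlinarith [mul_le_mul_of_nonneg_right h4 h5]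
        · simp only [hK]
          rw [if_neg h, mul_zero]
          exact mul_nonneg (wt_nonneg ht β) (sq_nonneg _)
    _ = ∑ i ∈ univ.erase j, nv t (L + 1) (msk j A) i :=
        sum_st_ot j fun i => nv t (L + 1) (msk j A) i
    _ ≤ ns t (L + 1) (msk j A) :=
        sum_le_sum_of_subset_of_nonneg (erase_subset _ _) fun i _ _ => nv_nonneg ht _ _ _

/-- the part of the iterated fresh sums at `j` which uses `j` -/
lemma np_fk {t : ℝ} (ht : 0 ≤ t) (j : Fin n) (A : Fam n) (k L : ℕ) :
    t ^ (k + 1) * np t L (fk {j} A (k + 1)) j ≤ ns t (L + (k + 1)) (msk j A) := by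
  rw [fk]
  calc t ^ (k + 1) * np t L (fr {j} (fk {j} A k)) j
      = t ^ k * (t * np t L (fr {j} (fk {j} A k)) j) := by ring
    _ ≤ t ^ k * ns t (L + 1) (msk j (fk {j} A k)) :=
        mul_le_mul_of_nonneg_left (np_fr ht L j _) (by positivity)
    _ ≤ ns t (L + 1 + k) (msk j A) := ns_msk_fk ht j A k (L + 1)
    _ = ns t (L + (k + 1)) (msk j A) := by
        congr 1
        omega

/-- exchange of the two indices -/
lemma sum_msk_le {t : ℝ} (ht : 0 ≤ t) (L : ℕ) (C : Fin n → Fam n)
    (hsym : ∀ j v α, C j v α = C v j α) (hP : ∀ j, Par j (C j)) :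
    ∑ j, ns t L (msk j (C j)) ≤ ∑ j, ∑ v, n3 t L (C j) v := by
  rw [Finset.sum_comm (s := univ) (t := univ) (f := fun j v => n3 t L (C j) v)]
  refine sum_le_sum fun j _ => sum_le_sum fun v _ => ?_
  unfold nv n3
  rw [sum_filter]
  refine sum_le_sum fun α _ => ?_
  have hw := wt_nonneg ht α
  by_cases h : v ≠ j ∧ 2 ≤ deg α j
  · unfold msk
    rw [if_pos h]
    by_cases h0 : C j v α = 0
    · rw [h0]
      split_ifs
      · rw [zero_pow two_ne_zero, mul_zero]
        exact mul_nonneg hw (sq_nonneg _)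
      · rw [zero_pow two_ne_zero, mul_zero]
    · have h1 := hP j v α h0 j
      rw [if_neg (Ne.symm h.1), if_pos rfl] at h1
      have h3 : 3 ≤ deg α j := by
        rw [Nat.even_iff] at h1
        omega
      rw [if_pos h3, hsym j v]
  · unfold msk
    rw [if_neg h, zero_pow two_ne_zero, mul_zero]
    split_ifs
    · exact mul_nonneg hw (sq_nonneg _)
    · exact le_rfl

end Vale.Agent.P146.R3.H924
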