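import Vale.Agent.P146.Bdl.B28

set_option linter.all false

/-!
# P146: the resolvent equation when the eigenvalues leave the edge quadratically

The error of the diagonal entry is at most `(1/κ + 2 c w / κ²)` times the error of the equation
if `c Λ(s) + κ (1 + (s/w)²) ≤ |ζ|`.
-/

open Filter Topology

namespace Vale.Agent.P146.R3.H924.ResQ

open Vale.Agent.P157.Par (Exponents Path)
open Vale.Agent.P146.Sk
open Vale.Agent.P146.Pw2
open Vale.Agent.P166.F (Lam)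

variable {K : ℕ} {m : ℕ → ℝ}

/-- the eigenvalues are the values of `Λ` -/
lemma Lam_at (hm' : Exponents K m) {R : ℕ → ℝ} (hR : Path K R) (hR1 : R K ≤ 1) {l : ℕ}
    (hl : l ≤ K) : Lam K m R (R l) = lam K m R l := by
  unfold Vale.Agent.P166.F.Lam Sk.lam
  have h1 : ∑ i ∈ Finset.range (l + 1), (m (i + 1) - m i) * max (R i - R l) 0 = 0 := by
    refine Finset.sum_eq_zero fun i hi => ?_
    have hi' := Finset.mem_range.1 hi
    have h2 := Vale.Agent.P166.F.fs_mono (hr_opath hR hR1) i l (by omega) hl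
    rw [max_eq_right (by linarith), mul_zero]
  have h2 : ∑ i ∈ Finset.Ico (l + 1) (K + 1), (m (i + 1) - m i) * max (R i - R l) 0 =
      ∑ i ∈ Finset.Ico (l + 1) (K + 1), (m (i + 1) - m i) * R i -
        (∑ i ∈ Finset.Ico (l + 1) (K + 1), (m (i + 1) - m i)) * R l := by
    rw [Finset.sum_mul, ← Finset.sum_sub_distrib]
    refine Finset.sum_congr rfl fun i hi => ?_
    have hi' := Finset.mem_Ico.1 hi
    have h3 := Vale.Agent.P166.F.fs_mono (hr_opath hR hR1) l i (by omega) (by omega)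
    rw [max_eq_left (by linarith)]
    ring
  have h3 : ∑ i ∈ Finset.Ico (l + 1) (K + 1), (m (i + 1) - m i) = 1 - m (l + 1) := by
    rw [Finset.sum_Ico_eq_sub _ (by omega), Finset.sum_range_sub, Finset.sum_range_sub,
      hm'.2.1]
    ring
  rw [Finset.range_eq_Ico, ← Finset.sum_Ico_consecutive _ (Nat.zero_le (l + 1))
    (show l + 1 ≤ K + 1 by omega), ← Finset.range_eq_Ico, h1, h2, h3]
  ring

/-- the telescoping bound -/
lemma tel_bound {A B : ℝ} (hA : 0 ≤ A) (hAB : A ≤ B) :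
    (B - A) * (1 / ((1 + A ^ 2) * (1 + B ^ 2))) ≤ 2 * (1 / (1 + A) - 1 / (1 + B)) := by
  have hB : 0 ≤ B := hA.trans hAB
  have h1 : (1 + A) * (1 + B) ≤ 2 * ((1 + A ^ 2) * (1 + B ^ 2)) := by
    nlinarith [sq_nonneg (A - 1), sq_nonneg (B - 1), sq_nonneg (A - B),
      mul_nonneg (sq_nonneg A) (sq_nonneg B)]
  have h2 : 1 / ((1 + A ^ 2) * (1 + B ^ 2)) ≤ 2 * (1 / ((1 + A) * (1 + B))) := by
    rw [mul_one_div, div_le_div_iff₀ (by positivity) (by positivity)]
    linarith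
  have h3 : (1 / (1 + A) - 1 / (1 + B)) = (B - A) * (1 / ((1 + A) * (1 + B))) := by
    field_simp
    ring
  rw [h3]
  have h4 := mul_le_mul_of_nonneg_left h2 (sub_nonneg.2 hAB)
  linarith

lemma base_bound {A : ℝ} (hA : 0 ≤ A) :
    A * (1 / (1 + A ^ 2)) ^ 2 ≤ 2 * (1 - 1 / (1 + A)) := by
  have h0 : 0 ≤ A ^ 2 := sq_nonneg A
  have h1 : 1 + A ≤ 2 * (1 + A ^ 2) ^ 2 := by
    nlinarith [sq_nonneg (A - 1), sq_nonneg (A ^ 2)]
  have h2 : (1 / (1 + A ^ 2)) ^ 2 ≤ 2 * (1 / (1 + A)) := by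
    rw [div_pow, one_pow, mul_one_div, div_le_div_iff₀ (by positivity) (by positivity)]
    linarith
  have h3 : 1 - 1 / (1 + A) = A * (1 / (1 + A)) := by
    field_simp
    ring
  rw [h3]
  have h4 := mul_le_mul_of_nonneg_left h2 hA
  linarith

variable {c κ w : ℝ} {ζ : ℂ} {R : ℕ → ℝ}

/-- the entries of the resolvent -/
lemma ru_le (hm' : Exponents K m) (hR : Path K R) (hR1 : R K ≤ 1) (hc : 0 ≤ c) (hκ : 0 < κ)
    (hq : ∀ l ≤ K, c * lam K m R l + κ * (1 + (R l / w) ^ 2) ≤ ‖ζ‖) {l : ℕ} (hl : l ≤ K) :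
    ‖ru K m c ζ R l‖ ≤ 1 / κ * (1 / (1 + (R l / w) ^ 2)) := by
  unfold ru
  rw [norm_div, norm_one, one_div_mul_one_div]
  have h1 : ‖(c : ℂ) * lam K m R l‖ = c * lam K m R l := by
    rw [norm_mul, Complex.norm_real, Complex.norm_real, Real.norm_eq_abs, Real.norm_eq_abs,
      abs_of_nonneg hc, abs_of_nonneg (hr_lam_nonneg hm' hR hR1 l hl)]
  have h2 := norm_sub_norm_le ζ ((c : ℂ) * lam K m R l)
  have h3 := hq l hl
  have h4 : 0 ≤ (R l / w) ^ 2 := sq_nonneg _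
  refine one_div_le_one_div_of_le (by positivity) ?_
  linarith

/-- the off-diagonal entries of the resolvent -/
theorem norm_rG_e' (hm' : Exponents K m) (hR : Path K R) (hR1 : R K ≤ 1) (hc : 0 ≤ c)
    (hκ : 0 < κ) (hw : 0 < w)
    (hq : ∀ l ≤ K, c * lam K m R l + κ * (1 + (R l / w) ^ 2) ≤ ‖ζ‖) {l : ℕ} (hl : l ≤ K) :
    ‖(rG K m c ζ R).2 l‖ ≤ 2 * c * w / κ ^ 2 := by
  have hz : ∀ l ≤ K, ζ - c * lam K m R l ≠ 0 := by
    intro l hl h0
    have h1 : ‖(c : ℂ) * lam K m R l‖ = c * lam K m R l := by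
      rw [norm_mul, Complex.norm_real, Complex.norm_real, Real.norm_eq_abs, Real.norm_eq_abs,
        abs_of_nonneg hc, abs_of_nonneg (hr_lam_nonneg hm' hR hR1 l hl)]
    have h2 := norm_sub_norm_le ζ ((c : ℂ) * lam K m R l)
    have h3 := hq l hl
    have h4 : 0 ≤ κ * (R l / w) ^ 2 := mul_nonneg hκ.le (sq_nonneg _)
    rw [h0, norm_zero] at h2
    linarith
  have hRn : ∀ l ≤ K, 0 ≤ R l / w := fun l hl =>
    div_nonneg (Vale.Agent.P166.F.fs_nonneg (hr_opath hR hR1) hl) hw.le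
  have key : ∀ l ≤ K, ‖(rG K m c ζ R).2 l‖ ≤
      2 * c * w / κ ^ 2 * (1 - 1 / (1 + R l / w)) := by
    intro l
    induction l with
    | zero =>
      intro _
      simp only [rG, Finset.range_zero, Finset.sum_empty, add_zero]
      rw [norm_mul, norm_mul, norm_pow, Complex.norm_real, Complex.norm_real, Real.norm_eq_abs,
        Real.norm_eq_abs, abs_of_nonneg hc, abs_of_nonneg hR.1]
      have h1 := ru_le hm' hR hR1 hc hκ hq (Nat.zero_le K)
      have h2 : ‖ru K m c ζ R 0‖ ^ 2 ≤ (1 / κ * (1 / (1 + (R 0 / w) ^ 2))) ^ 2 :=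
        pow_le_pow_left₀ (norm_nonneg _) h1 2
      have h3 := base_bound (hRn 0 (Nat.zero_le _))
      have h4 : 0 ≤ c * w / κ ^ 2 := by positivity
      calc c * R 0 * ‖ru K m c ζ R 0‖ ^ 2 ≤
          c * R 0 * (1 / κ * (1 / (1 + (R 0 / w) ^ 2))) ^ 2 :=
            mul_le_mul_of_nonneg_left h2 (mul_nonneg hc hR.1)
        _ = c * w / κ ^ 2 * (R 0 / w * (1 / (1 + (R 0 / w) ^ 2)) ^ 2) := by
            have e : R 0 = w * (R 0 / w) := by field_simp
            generalize hx : R 0 / w = x at *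
            rw [e]
            ring
        _ ≤ c * w / κ ^ 2 * (2 * (1 - 1 / (1 + R 0 / w))) := mul_le_mul_of_nonneg_left h3 h4
        _ = _ := by ring
    | succ l ih =>
      intro hl
      have e1 : (rG K m c ζ R).2 (l + 1) = (rG K m c ζ R).2 l +
          ((c * (R (l + 1) - R l) : ℝ) : ℂ) * (ru K m c ζ R l * ru K m c ζ R (l + 1)) := by
        rw [← ru_sub hm' hz (show l < K by omega)]
        simp only [rG, Finset.sum_range_succ]
        ring
      rw [e1]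
      have h3 : 0 ≤ c * (R (l + 1) - R l) := mul_nonneg hc (sub_nonneg.2 (hR.2 l (by omega)))
      have h4 : ‖((c * (R (l + 1) - R l) : ℝ) : ℂ) * (ru K m c ζ R l * ru K m c ζ R (l + 1))‖ ≤
          c * (R (l + 1) - R l) * ((1 / κ * (1 / (1 + (R l / w) ^ 2))) *
            (1 / κ * (1 / (1 + (R (l + 1) / w) ^ 2)))) := by
        rw [norm_mul, norm_mul, Complex.norm_real, Real.norm_eq_abs, abs_of_nonneg h3]
        refine mul_le_mul_of_nonneg_left ?_ h3
        exact mul_le_mul (ru_le hm' hR hR1 hc hκ hq (by omega))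
          (ru_le hm' hR hR1 hc hκ hq hl) (norm_nonneg _) (by positivity)
      have h5 : R l / w ≤ R (l + 1) / w := div_le_div_of_nonneg_right (hR.2 l (by omega)) hw.le
      have h6 := tel_bound (hRn l (by omega)) h5
      have h7 : 0 ≤ c * w / κ ^ 2 := by positivity
      have h8 : c * (R (l + 1) - R l) * ((1 / κ * (1 / (1 + (R l / w) ^ 2))) *
            (1 / κ * (1 / (1 + (R (l + 1) / w) ^ 2)))) =
          c * w / κ ^ 2 * ((R (l + 1) / w - R l / w) *
            (1 / ((1 + (R l / w) ^ 2) * (1 + (R (l + 1) / w) ^ 2)))) := by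
        have e2 : R (l + 1) - R l = w * (R (l + 1) / w - R l / w) := by field_simp
        rw [e2]
        generalize R (l + 1) / w = x
        generalize R l / w = z
        rw [← one_div_mul_one_div]
        ring
      rw [h8] at h4
      refine (norm_add_le _ _).trans ((add_le_add (ih (by omega)) (h4.trans
        (mul_le_mul_of_nonneg_left h6 h7))).trans (le_of_eq ?_))
      ring
  refine (key l hl).trans ?_
  have h1 : 0 ≤ 2 * c * w / κ ^ 2 := by positivity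
  have h2 : 0 ≤ 1 / (1 + R l / w) := by
    have := hRn l hl
    positivity
  calc 2 * c * w / κ ^ 2 * (1 - 1 / (1 + R l / w)) ≤ 2 * c * w / κ ^ 2 * 1 :=
        mul_le_mul_of_nonneg_left (by linarith) h1
    _ = _ := mul_one _

theorem norm_ru_le (hm' : Exponents K m) (hR : Path K R) (hR1 : R K ≤ 1) (hc : 0 ≤ c)
    (hκ : 0 < κ) (hq : ∀ l ≤ K, c * lam K m R l + κ * (1 + (R l / w) ^ 2) ≤ ‖ζ‖) {l : ℕ}
    (hl : l ≤ K) : ‖ru K m c ζ R l‖ ≤ 1 / κ := by
  refine (ru_le hm' hR hR1 hc hκ hq hl).trans ?_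
  have h1 : 1 / (1 + (R l / w) ^ 2) ≤ 1 := by
    rw [div_le_one (by positivity)]
    have : 0 ≤ (R l / w) ^ 2 := sq_nonneg _
    linarith
  calc 1 / κ * (1 / (1 + (R l / w) ^ 2)) ≤ 1 / κ * 1 :=
        mul_le_mul_of_nonneg_left h1 (by positivity)
    _ = _ := mul_one _

theorem norm_tf_le' (hm' : Exponents K m) (hR : Path K R) (hR1 : R K ≤ 1) (hc : 0 ≤ c)
    (hκ : 0 < κ) (hw : 0 < w)
    (hq : ∀ l ≤ K, c * lam K m R l + κ * (1 + (R l / w) ^ 2) ≤ ‖ζ‖) (E : ℂ × (ℕ → ℂ)) :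
    ‖tf K m (rG K m c ζ R) E‖ ≤ (1 / κ + 2 * c * w / κ ^ 2) * hNC K m E := by
  unfold tf hNC
  have hB : 0 ≤ 1 / κ := by positivity
  have hd : ‖(rG K m c ζ R).1‖ ≤ 1 / κ + 2 * c * w / κ ^ 2 := by
    have e1 : (rG K m c ζ R).1 = ru K m c ζ R K + (rG K m c ζ R).2 K := rfl
    rw [e1]
    exact (norm_add_le _ _).trans (add_le_add (norm_ru_le hm' hR hR1 hc hκ hq le_rfl)
      (norm_rG_e' hm' hR hR1 hc hκ hw hq le_rfl))
  have h1 : ‖(rG K m c ζ R).1 * E.1‖ ≤ (1 / κ + 2 * c * w / κ ^ 2) * ‖E.1‖ := by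
    rw [norm_mul]
    exact mul_le_mul_of_nonneg_right hd (norm_nonneg _)
  have h2 : ‖∑ i ∈ Finset.range (K + 1), ((m (i + 1) : ℂ) - m i) *
      ((rG K m c ζ R).2 i * E.2 i)‖ ≤
      ∑ i ∈ Finset.range (K + 1), (1 / κ + 2 * c * w / κ ^ 2) *
        ((m (i + 1) - m i) * ‖E.2 i‖) := by
    refine (norm_sum_le _ _).trans (Finset.sum_le_sum fun i hi => ?_)
    have hi' := Finset.mem_range.1 hi
    have hp := (hr_expo hm').p_nonneg (show i ≤ K by omega)
    have e1 : ((m (i + 1) : ℂ) - m i) = ((m (i + 1) - m i : ℝ) : ℂ) := by push_cast; rfl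
    rw [e1, norm_mul, norm_mul, Complex.norm_real, Real.norm_eq_abs, abs_of_nonneg hp]
    have h3 := norm_rG_e' hm' hR hR1 hc hκ hw hq (show i ≤ K by omega)
    have h4 : (m (i + 1) - m i) * (‖(rG K m c ζ R).2 i‖ * ‖E.2 i‖) ≤
        (m (i + 1) - m i) * ((1 / κ + 2 * c * w / κ ^ 2) * ‖E.2 i‖) := by
      refine mul_le_mul_of_nonneg_left (mul_le_mul_of_nonneg_right ?_ (norm_nonneg _)) hp
      linarith only [h3, hB]
    refine h4.trans (le_of_eq (by ring))
  rw [← Finset.mul_sum] at h2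
  rw [mul_add]
  exact (norm_sub_le _ _).trans (add_le_add h1 h2)

/-- **The solution of the resolvent equation.** -/
theorem solve' (hm' : Exponents K m) (hR : Path K R) (hR1 : R K ≤ 1) (hc : 0 ≤ c)
    (hκ : 0 < κ) (hw : 0 < w)
    (hq : ∀ l ≤ K, c * lam K m R l + κ * (1 + (R l / w) ^ 2) ≤ ‖ζ‖) (hζ : 0 < ζ.im)
    {T E : ℂ × (ℕ → ℂ)}
    (h1 : ζ * T.1 = 1 + c * (hmC K m (toC (1, R)) T).1 + E.1)
    (h2 : ∀ l ≤ K, ζ * T.2 l = R l + c * (hmC K m (toC (1, R)) T).2 l + E.2 l) :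
    |-(T.1).im - PHr K m c ζ R| ≤ (1 / κ + 2 * c * w / κ ^ 2) * hNC K m E := by
  have hz : ∀ l ≤ K, ζ - c * lam K m R l ≠ 0 := fun l _ => sub_ne c hζ _
  have e1 : T.1 = tf K m (rG K m c ζ R) (toC (1, R) + E) := by
    refine diag_solve hm' hz ?_ ?_
    · rw [h1]
      simp only [toC, Prod.fst_add, Complex.ofReal_one]
      ring
    · intro l hl
      rw [h2 l hl]
      simp only [toC, Prod.snd_add, Pi.add_apply]
      ring
  rw [e1, tf_add, Complex.add_im, ← tf_im hm' hR hR1 hζ]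
  have e2 : -((tf K m (rG K m c ζ R) (toC (1, R))).im + (tf K m (rG K m c ζ R) E).im) -
      -(tf K m (rG K m c ζ R) (toC (1, R))).im = -(tf K m (rG K m c ζ R) E).im := by ring
  rw [e2, abs_neg]
  exact (Complex.abs_im_le_norm _).trans (norm_tf_le' hm' hR hR1 hc hκ hw hq E)

/-- The solution, in the real form: `T = A - i B`. -/
theorem resQ (hm' : Exponents K m) (hR : Path K R) (hR1 : R K ≤ 1) (hc : 0 ≤ c)
    (hκ : 0 < κ) (hw : 0 < w)
    (hq : ∀ l ≤ K, c * lam K m R l + κ * (1 + (R l / w) ^ 2) ≤ ‖ζ‖) (hζ : 0 < ζ.im)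
    {TA TB : ℝ × (ℕ → ℝ)} {e : ℝ}
    (hA : hN K m (ζ.re • TA + ζ.im • TB - (1, R) - c • hm K m (1, R) TA) ≤ e)
    (hB : hN K m (ζ.im • TA - ζ.re • TB + c • hm K m (1, R) TB) ≤ e) :
    |TB.1 - PHI ζ c K m R| ≤ (1 / κ + 2 * c * w / κ ^ 2) * (2 * e) := by
  obtain ⟨EA, hEA⟩ : ∃ EA : ℝ × (ℕ → ℝ), EA = ζ.re • TA + ζ.im • TB - (1, R) -
    c • hm K m (1, R) TA := ⟨_, rfl⟩
  obtain ⟨EB, hEB⟩ : ∃ EB : ℝ × (ℕ → ℝ), EB = ζ.im • TA - ζ.re • TB + c • hm K m (1, R) TB :=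
    ⟨_, rfl⟩
  rw [← hEA] at hA
  rw [← hEB] at hB
  have hz : ζ = ζ.re + ζ.im * Complex.I := (Complex.re_add_im ζ).symm
  have key := solve' hm' hR hR1 hc hκ hw hq hζ
    (T := ((TA.1 : ℂ) - TB.1 * Complex.I, fun l => (TA.2 l : ℂ) - TB.2 l * Complex.I))
    (E := ((EA.1 : ℂ) + EB.1 * Complex.I, fun l => (EA.2 l : ℂ) + EB.2 l * Complex.I)) ?_ ?_
  · have e1 : -((TA.1 : ℂ) - TB.1 * Complex.I).im = TB.1 := by simp
    have e2 : hNC K m ((EA.1 : ℂ) + EB.1 * Complex.I, fun l => (EA.2 l : ℂ) + EB.2 l * Complex.I) ≤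
        hN K m EA + hN K m EB := by
      unfold hNC hN
      have b : ∀ x y : ℝ, ‖(x : ℂ) + y * Complex.I‖ ≤ |x| + |y| := by
        intro x y
        refine (norm_add_le _ _).trans (le_of_eq ?_)
        rw [norm_mul, Complex.norm_I, mul_one, Complex.norm_real, Complex.norm_real]
        rfl
      have b1 := b EA.1 EB.1
      have b2 : ∑ i ∈ Finset.range (K + 1), (m (i + 1) - m i) *
          ‖(EA.2 i : ℂ) + EB.2 i * Complex.I‖ ≤
          ∑ i ∈ Finset.range (K + 1), (m (i + 1) - m i) * |EA.2 i| +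
          ∑ i ∈ Finset.range (K + 1), (m (i + 1) - m i) * |EB.2 i| := by
        rw [← Finset.sum_add_distrib]
        refine Finset.sum_le_sum fun i hi => ?_
        rw [← mul_add]
        exact mul_le_mul_of_nonneg_left (b _ _)
          ((hr_expo hm').p_nonneg (by have := Finset.mem_range.1 hi; omega))
      simp only at b1 b2 ⊢
      linarith
    rw [e1] at key
    have e3 : PHI ζ c K m R = PHr K m c ζ R := rfl
    rw [e3]
    refine key.trans (mul_le_mul_of_nonneg_left (e2.trans ?_) ?_)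
    · linarith
    · positivity
  · have f1 : EA.1 = ζ.re * TA.1 + ζ.im * TB.1 - 1 - c * (hm K m (1, R) TA).1 := by
      rw [hEA]; simp
    have f2 : EB.1 = ζ.im * TA.1 - ζ.re * TB.1 + c * (hm K m (1, R) TB).1 := by
      rw [hEB]; simp
    have f3 : (hmC K m (toC (1, R)) ((TA.1 : ℂ) - TB.1 * Complex.I,
        fun l => (TA.2 l : ℂ) - TB.2 l * Complex.I)).1 =
        ((hm K m (1, R) TA).1 : ℂ) - (hm K m (1, R) TB).1 * Complex.I := by
      simp only [hmC, toC, hm]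
      push_cast
      rw [Finset.sum_congr rfl (fun i _ => show ((m (i + 1) : ℂ) - m i) * ((R i : ℂ) *
          ((TA.2 i : ℂ) - TB.2 i * Complex.I)) = ((m (i + 1) : ℂ) - m i) * ((R i : ℂ) * TA.2 i) -
          ((m (i + 1) : ℂ) - m i) * ((R i : ℂ) * TB.2 i) * Complex.I by ring),
        Finset.sum_sub_distrib, ← Finset.sum_mul]
      ring
    rw [f3]
    simp only [f1, f2]
    push_cast
    linear_combination ((TA.1 : ℂ) - TB.1 * Complex.I) * hz - (ζ.im * TB.1 : ℂ) * Complex.I_sq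
  · intro l hl
    have f1 : EA.2 l = ζ.re * TA.2 l + ζ.im * TB.2 l - R l - c * (hm K m (1, R) TA).2 l := by
      rw [hEA]; simp
    have f2 : EB.2 l = ζ.im * TA.2 l - ζ.re * TB.2 l + c * (hm K m (1, R) TB).2 l := by
      rw [hEB]; simp
    have f3 : (hmC K m (toC (1, R)) ((TA.1 : ℂ) - TB.1 * Complex.I,
        fun l => (TA.2 l : ℂ) - TB.2 l * Complex.I)).2 l =
        ((hm K m (1, R) TA).2 l : ℂ) - (hm K m (1, R) TB).2 l * Complex.I := by
      simp only [hmC, toC, hm]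
      push_cast
      have s1 : ∀ s : Finset ℕ, ∑ i ∈ s, ((m (i + 1) : ℂ) - m i) * ((R i : ℂ) *
          ((TA.2 i : ℂ) - TB.2 i * Complex.I)) = ∑ i ∈ s, ((m (i + 1) : ℂ) - m i) *
          ((R i : ℂ) * TA.2 i) - (∑ i ∈ s, ((m (i + 1) : ℂ) - m i) *
          ((R i : ℂ) * TB.2 i)) * Complex.I := by
        intro s
        rw [Finset.sum_mul, ← Finset.sum_sub_distrib]
        exact Finset.sum_congr rfl fun i _ => by ring
      have s2 : ∀ s : Finset ℕ, ∑ i ∈ s, ((m (i + 1) : ℂ) - m i) *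
          ((TA.2 i : ℂ) - TB.2 i * Complex.I) = ∑ i ∈ s, ((m (i + 1) : ℂ) - m i) * TA.2 i -
          (∑ i ∈ s, ((m (i + 1) : ℂ) - m i) * TB.2 i) * Complex.I := by
        intro s
        rw [Finset.sum_mul, ← Finset.sum_sub_distrib]
        exact Finset.sum_congr rfl fun i _ => by ring
      rw [s1, s2]
      ring
    rw [f3]
    simp only [f1, f2]
    push_cast
    linear_combination ((TA.2 l : ℂ) - TB.2 l * Complex.I) * hz -
      (ζ.im * TB.2 l : ℂ) * Complex.I_sq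

end Vale.Agent.P146.R3.H924.ResQ
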