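import Vale.Agent.P146.R3.H729.TbLow
import Vale.Agent.P146.R3.H924.ResQ

set_option linter.all false

/-!
# P146: the quadratic form of the resolvent is large, sharper numbers
-/

open MeasureTheory ProbabilityTheory Matrix Filter Topology

namespace Vale.Agent.P146.R3.H924.Tb9

open Vale.Agent.P157 (spin)
open Vale.Agent.P157.Lv
open Vale.Agent.P157.Par (Path Exponents topN lw spinPart)
open Vale.Agent.P146.Sk
open Vale.Agent.P166.F (Lam)
open Vale.Agent.P146.Sk.Gen (GI gz gl r0 gS gF gOb gIsOpt GD gV)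
open Vale.Agent.P146.Pw2
open Vale.Agent.P146.R3.H729.TbLow

/-- The closed equations for the quadratic forms of the resolvent, with the second moment in
place of the operator norm. -/
def EQS (β : ℝ) : Prop := ∃ C : ℝ, 1 ≤ C ∧ ∀ (N K : ℕ) (m : ℕ → ℝ) (y a b : ℝ) (s : ℕ → ℝ),
  0 < N → Exponents K m → 0 < y → y ≤ 1 → a ∈ Set.Icc (0 : ℝ) 1 → b ∈ Set.Icc (0 : ℝ) 1 →
  (∀ l ≤ K, 0 ≤ s l) →
  hN K m ((zt N y).re • TQ (sy N K m β y a b s) (ZA N K y) +
      (zt N y).im • TQ (sy N K m β y a b s) (ZB N K y) -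
      (1, fun l => (sy N K m β y a b s).Rl spin l) -
      (β * a) • hm K m (1, fun l => (sy N K m β y a b s).Rl spin l)
        (TQ (sy N K m β y a b s) (ZA N K y))) ≤
    C * (√(Tb y (sy N K m β y a b s) / y) * (√(Vd m (sy N K m β y a b s)) +
      b / y * √(Tb y (sy N K m β y a b s) / y)) + 1 / (N * y ^ 4)) ∧
  hN K m ((zt N y).im • TQ (sy N K m β y a b s) (ZA N K y) -
      (zt N y).re • TQ (sy N K m β y a b s) (ZB N K y) +
      (β * a) • hm K m (1, fun l => (sy N K m β y a b s).Rl spin l)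
        (TQ (sy N K m β y a b s) (ZB N K y))) ≤
    C * (√(Tb y (sy N K m β y a b s) / y) * (√(Vd m (sy N K m β y a b s)) +
      b / y * √(Tb y (sy N K m β y a b s) / y)) + 1 / (N * y ^ 4))

/-- the diagonal entry -/
lemma tq_one {N K : ℕ} (y : ℝ) (S : Sy (GI (Ix N) N K) (Fin N → Bool)) (hSK : S.K = K) :
    (TQ S (ZB N K y)).1 = Tb y S := by
  show Rec.TT S spin (ZB N K y) (K + 1) = _
  unfold Rec.TT Tb
  congr 2
  funext z x
  rw [Rec.yv_gt (by rw [hSK]; omega), qf_eq_dot _ (by_symm (Wm_transpose _))]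
  rfl

/-- the error of the equations, when the form is small -/
lemma err9 {C J Q b t n : ℝ} (hC : 1 ≤ C) (ht : 0 < t) (ht1 : t ≤ 1) (hJ0 : 0 ≤ J)
    (hJ : J ≤ 1 / (C * t ^ 3)) (hQ0 : 0 ≤ Q) (hQ : C ^ 2 * Q ≤ t ^ 7) (hb0 : 0 ≤ b)
    (hb : C * b ≤ t ^ 11) (hn : 0 < n) (hN : C ≤ n * t ^ 24) :
    √(J / t ^ 4) * (√Q + b / t ^ 4 * √(J / t ^ 4)) + 1 / (n * (t ^ 4) ^ 4) ≤ 3 / C := by
  have hC0 : 0 < C := by linarith
  have h1 : J / t ^ 4 ≤ 1 / (C * t ^ 7) := by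
    rw [div_le_iff₀ (by positivity)]
    refine hJ.trans (le_of_eq ?_)
    field_simp
  have h0 : 0 ≤ J / t ^ 4 := by positivity
  have h2 : √(J / t ^ 4) * √Q ≤ 1 / C := by
    rw [← Real.sqrt_mul h0]
    refine Real.sqrt_le_iff.2 ⟨by positivity, ?_⟩
    have e1 : Q ≤ t ^ 7 / C ^ 2 := by
      rw [le_div_iff₀ (by positivity)]
      linarith
    calc J / t ^ 4 * Q ≤ 1 / (C * t ^ 7) * (t ^ 7 / C ^ 2) :=
          mul_le_mul h1 e1 hQ0 (by positivity)
      _ = (1 / C) ^ 2 * (1 / C) := by field_simp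
      _ ≤ (1 / C) ^ 2 * 1 := by
          refine mul_le_mul_of_nonneg_left ?_ (by positivity)
          rw [div_le_one hC0]
          exact hC
      _ = (1 / C) ^ 2 := mul_one _
  have h3 : √(J / t ^ 4) * (b / t ^ 4 * √(J / t ^ 4)) ≤ 1 / C := by
    have e1 : √(J / t ^ 4) * (b / t ^ 4 * √(J / t ^ 4)) = b / t ^ 4 * (J / t ^ 4) := by
      have := Real.mul_self_sqrt h0
      calc √(J / t ^ 4) * (b / t ^ 4 * √(J / t ^ 4)) =
          b / t ^ 4 * (√(J / t ^ 4) * √(J / t ^ 4)) := by ring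
        _ = _ := by rw [this]
    have e2 : b ≤ t ^ 11 / C := by
      rw [le_div_iff₀ hC0]
      linarith
    rw [e1]
    calc b / t ^ 4 * (J / t ^ 4) ≤ t ^ 11 / C / t ^ 4 * (1 / (C * t ^ 7)) := by
          gcongr
      _ = 1 / C * (1 / C) := by field_simp
      _ ≤ 1 / C * 1 := by
          refine mul_le_mul_of_nonneg_left ?_ (by positivity)
          rw [div_le_one hC0]
          exact hC
      _ = 1 / C := mul_one _
  have h4 : 1 / (n * (t ^ 4) ^ 4) ≤ 1 / C := by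
    refine one_div_le_one_div_of_le hC0 (hN.trans ?_)
    refine mul_le_mul_of_nonneg_left ?_ hn.le
    calc t ^ 24 ≤ t ^ 16 := pow_le_pow_of_le_one ht.le ht1 (by norm_num)
      _ = (t ^ 4) ^ 4 := by ring
  rw [mul_add]
  have e : 3 / C = 1 / C + 1 / C + 1 / C := by ring
  linarith

/-- **The quadratic form of the resolvent is large.** -/
theorem tb9 {β : ℝ} (hβ : 0 < β) (hE : EQS β) (C0 : ℝ) (hC0 : 1 ≤ C0) : ∃ C : ℝ, 1 ≤ C ∧
    ∀ (N K : ℕ) (m q : ℕ → ℝ) (t a b : ℝ) (s : ℕ → ℝ), 0 < N → Exponents K m → Path K q →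
      q K ≤ 1 → 0 < t → t ≤ 1 / C → C ≤ N * t ^ 24 →
      (∀ u ∈ Set.Icc (0 : ℝ) 1, 1 - C0 * u ^ 2 - t ^ 3 ≤ β * Lam K m q u ∧
        β * Lam K m q u ≤ 1 - u ^ 2 / C0 + t ^ 3) →
      a ∈ Set.Icc (0 : ℝ) 1 → C * (1 - a) ≤ t ^ 2 → b ∈ Set.Icc (0 : ℝ) 1 → C * b ≤ t ^ 11 →
      (∀ l ≤ K, 0 ≤ s l) → C ^ 2 * Qd K m q (sy N K m β (t ^ 4) a b s) ≤ t ^ 7 →
      1 / (C * t ^ 3) ≤ Tb (t ^ 4) (sy N K m β (t ^ 4) a b s) := by
  obtain ⟨Ce, hCe1, he⟩ := hE
  obtain ⟨Cz, hCz1, hz⟩ := zeta_facts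
  obtain ⟨C, hC⟩ : ∃ C : ℝ, C = 64 + 64 * β + Cz +
    (24 * (1 + 8 * β * C0) * Ce + 1) * (10 ^ 6 * C0) := ⟨_, rfl⟩
  have pβ : 0 ≤ β * C0 := mul_nonneg hβ.le (by linarith)
  have p1 : 0 ≤ (24 * (1 + 8 * β * C0) * Ce + 1) * (10 ^ 6 * C0) := by positivity
  have c64 : 64 ≤ C := by rw [hC]; linarith only [p1, hβ, hCz1]
  have cβ : 64 * β ≤ C := by rw [hC]; linarith only [p1, hβ, hCz1]
  have cz : Cz ≤ C := by rw [hC]; linarith only [p1, hβ, hCz1]
  have cb : (24 * (1 + 8 * β * C0) * Ce + 1) * (10 ^ 6 * C0) ≤ C := by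
    rw [hC]; linarith only [hβ, hCz1]
  clear hC
  have hC0' : 0 < C := by linarith only [c64]
  refine ⟨C, by linarith only [c64], ?_⟩
  intro N K m q t a b s hN hm hq hq1 ht htC hNt hcon ha hat hb hbt hs hQ
  have hN' : (0 : ℝ) < N := by exact_mod_cast hN
  have ht64 : t ≤ 1 / 64 := htC.trans (one_div_le_one_div_of_le (by norm_num) c64)
  have ht1 : t ≤ 1 := ht64.trans (by norm_num)
  have hsq : √(t ^ 4) = t ^ 2 := by
    rw [show t ^ 4 = (t ^ 2) ^ 2 by ring, Real.sqrt_sq (by positivity)]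
  have hy0 : 0 < t ^ 4 := by positivity
  have hyt : t ^ 4 ≤ t := by
    calc t ^ 4 ≤ t ^ 1 := pow_le_pow_of_le_one ht.le ht1 (by norm_num)
      _ = t := pow_one t
  have hyz : t ^ 4 ≤ 1 / Cz :=
    (hyt.trans htC).trans (one_div_le_one_div_of_le (by linarith only [hCz1]) cz)
  have hN6 : C ≤ N * (t ^ 4) ^ 6 := by
    rw [← pow_mul]
    exact hNt
  obtain ⟨-, -, -, -, -, -, z1, z2, z3, z4⟩ := hz N (t ^ 4) hN hy0 hyz (cz.trans hN6)
  rw [hsq] at z1 z2 z3 z4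
  by_contra hneg
  have hJ := (not_le.1 hneg).le
  obtain ⟨hJ0, -⟩ := tb_bounds β hy0 hN hm a b s
  obtain ⟨D, B, h, hB, hBe, hBw⟩ := gdq (K := K) β hy0 hN hm a b
  have F := Gen.gS_fld h hs
  have hRp : Path K (fun l => (sy N K m β (t ^ 4) a b s).Rl spin l) := om_path h hs
  have hRK : (fun l => (sy N K m β (t ^ 4) a b s).Rl spin l) K ≤ 1 := F.Rl_le_one le_rfl
  have hqd := qd_eq h hs q
  have heq := he N K m (t ^ 4) a b s hN hm hy0 (hyt.trans ht1) ha hb hs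
  have htq := tq_one (t ^ 4) (sy N K m β (t ^ 4) a b s) rfl
  obtain ⟨R, hR⟩ : ∃ R : ℕ → ℝ, R = fun l => (sy N K m β (t ^ 4) a b s).Rl spin l := ⟨_, rfl⟩
  rw [← hR] at hRp hRK heq
  have hVd0 : 0 ≤ Vd m (sy N K m β (t ^ 4) a b s) := by
    unfold Vd
    refine Finset.sum_nonneg fun l hl => mul_nonneg ?_ ?_
    · exact (sub_pos.2 (hm.2.2 l (Nat.lt_succ_iff.1 (Finset.mem_range.1 hl)))).le
    · have hl' : l ≤ K := Nat.lt_succ_iff.1 (Finset.mem_range.1 hl)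
      exact F.hreg.pairEx_nonneg (l := l) hl' fun x x' => sq_nonneg _
  obtain ⟨M2, hM2⟩ : ∃ M2 : ℝ, M2 = ∑ l ∈ Finset.range (K + 1), (m (l + 1) - m l) *
      (R l - q l) ^ 2 := ⟨_, rfl⟩
  have hqd' : Qd K m q (sy N K m β (t ^ 4) a b s) = Vd m (sy N K m β (t ^ 4) a b s) + M2 := by
    rw [hM2, hR]
    exact hqd
  have hM20 : 0 ≤ M2 := by
    rw [hM2]
    refine Finset.sum_nonneg fun l hl => mul_nonneg ?_ (sq_nonneg _)
    exact (sub_pos.2 (hm.2.2 l (Nat.lt_succ_iff.1 (Finset.mem_range.1 hl)))).le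
  obtain ⟨V, hV⟩ : ∃ V, V = Vd m (sy N K m β (t ^ 4) a b s) := ⟨_, rfl⟩
  obtain ⟨J, hJd⟩ : ∃ J, J = Tb (t ^ 4) (sy N K m β (t ^ 4) a b s) := ⟨_, rfl⟩
  rw [← hV] at hVd0 hqd' heq
  rw [← hJd] at hJ hJ0 heq hneg htq
  rw [hqd'] at hQ
  have hVt : C ^ 2 * V ≤ t ^ 7 := by
    have : 0 ≤ C ^ 2 * M2 := by positivity
    rw [mul_add] at hQ
    linarith only [hQ, this]
  have hMt : C ^ 2 * M2 ≤ t ^ 7 := by
    have : 0 ≤ C ^ 2 * V := by positivity
    rw [mul_add] at hQ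
    linarith only [hQ, this]
  have hM : √M2 ≤ t ^ 3 / C := by
    refine Real.sqrt_le_iff.2 ⟨by positivity, ?_⟩
    rw [div_pow, le_div_iff₀ (by positivity)]
    have e1 : t ^ 7 ≤ (t ^ 3) ^ 2 := by
      calc t ^ 7 ≤ t ^ 6 := pow_le_pow_of_le_one ht.le ht1 (by norm_num)
        _ = (t ^ 3) ^ 2 := by ring
    linarith only [hMt, e1]
  have hLam : ∀ u : ℝ, |Lam K m R u - Lam K m q u| ≤ t ^ 3 / C := fun u =>
    (lam_sub_le hm q R u).trans ((wabs_le hm fun l => R l - q l).trans (by rw [← hM2]; exact hM))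
  -- small quantities
  have s1 : β * (t ^ 3 / C) ≤ t ^ 2 / 64 := by
    have e1 : β * (t ^ 3 / C) = β / C * t ^ 3 := by ring
    have e2 : β / C ≤ 1 / 64 := by
      rw [div_le_div_iff₀ hC0' (by norm_num)]
      linarith only [cβ]
    have e3 : t ^ 3 ≤ t ^ 2 := pow_le_pow_of_le_one ht.le ht1 (by norm_num)
    rw [e1]
    calc β / C * t ^ 3 ≤ 1 / 64 * t ^ 2 := mul_le_mul e2 e3 (by positivity) (by norm_num)
      _ = t ^ 2 / 64 := by ring
  have s2 : t ^ 3 ≤ t ^ 2 / 64 := by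
    calc t ^ 3 = t ^ 2 * t := by ring
      _ ≤ t ^ 2 * (1 / 64) := mul_le_mul_of_nonneg_left ht64 (by positivity)
      _ = t ^ 2 / 64 := by ring
  have ha0 : 0 ≤ a := ha.1
  have ha1 : a ≤ 1 := ha.2
  have hat' : 1 - a ≤ t ^ 2 / 64 := by
    have e1 : 64 * (1 - a) ≤ C * (1 - a) :=
      mul_le_mul_of_nonneg_right c64 (by linarith only [ha1])
    linarith only [e1, hat]
  have hβa : 0 ≤ β * a := mul_nonneg hβ.le ha0
  have ht2 : t ^ 2 ≤ 1 := pow_le_one₀ ht.le ht1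
  have ha2 : 1 / 2 ≤ a := by linarith only [hat', ht2]
  -- the upper bound of the eigenvalues
  have hup : ∀ u ∈ Set.Icc (0 : ℝ) 1, β * a * Lam K m R u ≤
      1 + t ^ 2 / 32 - u ^ 2 / (4 * C0 ^ 2) := by
    intro u hu
    have e1 := (abs_le.1 (hLam u)).2
    have e2 := (hcon u hu).2
    have e3 : β * Lam K m R u ≤ β * Lam K m q u + β * (t ^ 3 / C) := by
      rw [← mul_add]
      exact mul_le_mul_of_nonneg_left (by linarith only [e1]) hβ.le
    have e4 : β * Lam K m R u ≤ 1 + t ^ 2 / 32 - u ^ 2 / C0 := by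
      linarith only [e3, e2, s1, s2]
    have e5 : β * a * Lam K m R u ≤ a * (1 + t ^ 2 / 32 - u ^ 2 / C0) := by
      have := mul_le_mul_of_nonneg_left e4 ha0
      linarith only [this]
    have e6 : a * (1 + t ^ 2 / 32) ≤ 1 * (1 + t ^ 2 / 32) :=
      mul_le_mul_of_nonneg_right ha1 (by positivity)
    have e7 : u ^ 2 / (4 * C0 ^ 2) ≤ a * (u ^ 2 / C0) := by
      have f1 : 1 / 2 * (u ^ 2 / C0) ≤ a * (u ^ 2 / C0) :=
        mul_le_mul_of_nonneg_right ha2 (by positivity)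
      have f2 : u ^ 2 / (4 * C0 ^ 2) ≤ u ^ 2 / (2 * C0) := by
        refine div_le_div_of_nonneg_left (sq_nonneg u) (by positivity) ?_
        have := mul_le_mul_of_nonneg_left hC0 (show (0 : ℝ) ≤ C0 by linarith only [hC0])
        linarith only [this, hC0]
      have f3 : 1 / 2 * (u ^ 2 / C0) = u ^ 2 / (2 * C0) := by
        field_simp
      linarith only [f1, f2, f3]
    linarith only [e5, e6, e7]
  have hchi : β * a * Sk.chi K m R ≤ 1 + t ^ 2 / 32 := by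
    rw [← lam_zero hRp]
    have := hup 0 ⟨le_rfl, zero_le_one⟩
    have e : (0 : ℝ) ^ 2 / (4 * C0 ^ 2) = 0 := by simp
    linarith only [this, e]
  -- the resolvent
  have hR01 : ∀ l ≤ K, R l ∈ Set.Icc (0 : ℝ) 1 := fun l hl =>
    ⟨Vale.Agent.P166.F.fs_nonneg (hr_opath hRp hRK) hl,
      Vale.Agent.P166.F.fs_le_one (hr_opath hRp hRK) hl⟩
  have hζn : 1 + t ^ 2 / 2 ≤ ‖zt N (t ^ 4)‖ := z1.trans (Complex.re_le_norm _)
  have hres : ∀ l ≤ K, β * a * Sk.lam K m R l +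
      t ^ 2 / 4 * (1 + (R l / (C0 * t)) ^ 2) ≤ ‖zt N (t ^ 4)‖ := by
    intro l hl
    have e1 := hup (R l) (hR01 l hl)
    rw [ResQ.Lam_at hm hRp hRK hl] at e1
    have e2 : t ^ 2 / 4 * (1 + (R l / (C0 * t)) ^ 2) = t ^ 2 / 4 + (R l) ^ 2 / (4 * C0 ^ 2) := by
      have : C0 ≠ 0 := by linarith only [hC0]
      field_simp
    rw [e2]
    linarith only [e1, hζn, sq_nonneg t]
  have hi : 0 < (zt N (t ^ 4)).im := by
    have : 0 < t ^ 2 := by positivity
    linarith only [this, z3]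
  have herr := err9 (C := C) (J := J) (Q := V) (b := b) (t := t) (n := N)
    (by linarith only [c64]) ht ht1 hJ0 hJ hVd0 hVt hb.1 hbt hN' hNt
  have hval := ResQ.resQ hm hRp hRK hβa (show 0 < t ^ 2 / 4 by positivity)
    (show 0 < C0 * t by positivity) hres hi heq.1 heq.2
  rw [htq] at hval
  have hfac : (1 / (t ^ 2 / 4) + 2 * (β * a) * (C0 * t) / (t ^ 2 / 4) ^ 2) ≤
      4 * (1 + 8 * β * C0) / t ^ 3 := by
    have e1 : 1 / (t ^ 2 / 4) ≤ 4 / t ^ 3 := by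
      rw [div_le_div_iff₀ (by positivity) (by positivity)]
      have : t ^ 3 ≤ t ^ 2 := pow_le_pow_of_le_one ht.le ht1 (by norm_num)
      linarith only [this]
    have e2 : 2 * (β * a) * (C0 * t) / (t ^ 2 / 4) ^ 2 = 32 * (a * (β * C0)) / t ^ 3 := by
      field_simp
      ring
    have e3 : 32 * (a * (β * C0)) / t ^ 3 ≤ 32 * (1 * (β * C0)) / t ^ 3 := by
      refine div_le_div_of_nonneg_right ?_ (by positivity)
      have := mul_le_mul_of_nonneg_right ha1 pβ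
      linarith only [this]
    have e4 : 4 * (1 + 8 * β * C0) / t ^ 3 = 4 / t ^ 3 + 32 * (1 * (β * C0)) / t ^ 3 := by
      rw [← add_div]
      congr 1
      ring
    rw [e4, e2]
    linarith only [e1, e3]
  have hbig : |J - PHI (zt N (t ^ 4)) (β * a) K m R| ≤
      24 * (1 + 8 * β * C0) * Ce / (C * t ^ 3) := by
    refine hval.trans ?_
    have f1 : 0 ≤ 4 * (1 + 8 * β * C0) / t ^ 3 := by positivity
    have f2 : 0 ≤ √(J / t ^ 4) * (√V + b / t ^ 4 * √(J / t ^ 4)) + 1 / (N * (t ^ 4) ^ 4) := by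
      have := hb.1
      positivity
    calc (1 / (t ^ 2 / 4) + 2 * (β * a) * (C0 * t) / (t ^ 2 / 4) ^ 2) *
          (2 * (Ce * (√(J / t ^ 4) * (√V + b / t ^ 4 * √(J / t ^ 4)) +
            1 / (N * (t ^ 4) ^ 4)))) ≤ 4 * (1 + 8 * β * C0) / t ^ 3 * (2 * (Ce * (3 / C))) := by
          refine mul_le_mul hfac ?_ (by positivity) f1
          have := mul_le_mul_of_nonneg_left herr (show 0 ≤ Ce by linarith only [hCe1])
          linarith only [this]
      _ = 24 * (1 + 8 * β * C0) * Ce / (C * t ^ 3) := by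
          field_simp
          ring
  -- the main term
  have hphi := phi_lower (c := β * a) (κ := t ^ 2 / 8) (v := t / (4 * C0)) (ζ := zt N (t ^ 4)) hm
    hRp hRK hβa (by positivity) (by linarith only [ht2]) (by linarith only [z1])
    (by linarith only [z2]) (by linarith only [z3]) (by linarith only [z4])
    (by linarith only [hchi, sq_nonneg t]) (by positivity) (by
      rw [div_le_one (by positivity)]
      linarith only [ht1, hC0]) (by
      intro u hu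
      have hu1 : u ≤ 1 := hu.2.trans (by
        rw [div_le_one (by positivity)]
        linarith only [ht1, hC0])
      obtain ⟨e1, e2⟩ := hcon u ⟨hu.1, hu1⟩
      have e3 := (abs_le.1 (hLam u)).1
      have e4 : C0 * u ^ 2 ≤ t ^ 2 / 16 := by
        have h1 : u ^ 2 ≤ (t / (4 * C0)) ^ 2 := pow_le_pow_left₀ hu.1 hu.2 2
        have h2 : C0 * u ^ 2 ≤ C0 * (t / (4 * C0)) ^ 2 :=
          mul_le_mul_of_nonneg_left h1 (by linarith only [hC0])
        have h3 : C0 * (t / (4 * C0)) ^ 2 = t ^ 2 / 16 * (1 / C0) := by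
          field_simp
          ring
        have h4 : 1 / C0 ≤ 1 := by
          rw [div_le_one (by linarith only [hC0])]
          exact hC0
        have h5 : t ^ 2 / 16 * (1 / C0) ≤ t ^ 2 / 16 * 1 :=
          mul_le_mul_of_nonneg_left h4 (by positivity)
        linarith only [h2, h3, h5]
      have e5 : β * Lam K m q u - β * (t ^ 3 / C) ≤ β * Lam K m R u := by
        rw [← mul_sub]
        exact mul_le_mul_of_nonneg_left (by linarith only [e3]) hβ.le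
      obtain ⟨X, hX⟩ : ∃ X : ℝ, X = β * Lam K m R u := ⟨_, rfl⟩
      rw [← hX] at e5
      have e6 : 1 - t ^ 2 / 16 - t ^ 2 / 32 ≤ X := by linarith only [e5, e1, e4, s1, s2]
      have e7 : β * a * Lam K m R u = a * X := by
        rw [hX]
        ring
      rw [e7]
      have e8 : a * (1 - t ^ 2 / 16 - t ^ 2 / 32) ≤ a * X := mul_le_mul_of_nonneg_left e6 ha0
      have e9 : (1 - a) * (1 - t ^ 2 / 16 - t ^ 2 / 32) ≤ (1 - a) * 1 :=
        mul_le_mul_of_nonneg_left (by linarith only [sq_nonneg t]) (by linarith only [ha1])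
      linarith only [e8, e9, hat', s2, sq_nonneg t])
  have hmain : 16 / (10 ^ 6 * C0 * t ^ 3) ≤ PHI (zt N (t ^ 4)) (β * a) K m R := by
    refine le_trans (le_of_eq ?_) hphi
    field_simp
    ring
  have hfin : 1 / (C * t ^ 3) ≤ 1 / (10 ^ 6 * C0 * t ^ 3) -
      24 * (1 + 8 * β * C0) * Ce / (C * t ^ 3) := by
    have h1 : (24 * (1 + 8 * β * C0) * Ce + 1) / (C * t ^ 3) ≤ 1 / (10 ^ 6 * C0 * t ^ 3) := by
      rw [div_le_div_iff₀ (by positivity) (by positivity)]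
      have h2 : (24 * (1 + 8 * β * C0) * Ce + 1) * (10 ^ 6 * C0) * t ^ 3 ≤ C * t ^ 3 :=
        mul_le_mul_of_nonneg_right cb (by positivity)
      linarith only [h2]
    have h3 : (24 * (1 + 8 * β * C0) * Ce + 1) / (C * t ^ 3) =
        24 * (1 + 8 * β * C0) * Ce / (C * t ^ 3) + 1 / (C * t ^ 3) := by
      rw [add_div]
    linarith only [h1, h3]
  have h4 : (16 : ℝ) / (10 ^ 6 * C0 * t ^ 3) = 16 * (1 / (10 ^ 6 * C0 * t ^ 3)) := by ring
  have h5 : 0 < 1 / (10 ^ 6 * C0 * t ^ 3) := by positivity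
  have h9 := (abs_le.1 hbig).1
  linarith only [h9, hmain, hfin, h4, h5, hJ]

end Vale.Agent.P146.R3.H924.Tb9
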